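import Crest.Agent.R264.Base.Montel

set_option autoImplicit false
set_option linter.unusedSectionVars false
open Set Filter Topology Metric Complex

namespace Crest.Agent.R264

variable {E F G : Type}
  [NormedAddCommGroup E] [NormedSpace ℂ E] [NormedSpace ℝ E] [IsScalarTower ℝ ℂ E] [FiniteDimensional ℂ E]
  [NormedAddCommGroup F] [NormedSpace ℂ F] [NormedSpace ℝ F] [IsScalarTower ℝ ℂ F] [FiniteDimensional ℂ F]
  [NormedAddCommGroup G] [NormedSpace ℂ G] [NormedSpace ℝ G] [IsScalarTower ℝ ℂ G] [FiniteDimensional ℂ G]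

/-! Brackets of holomorphic tangent fields.  In computations extend everything analytically near the point:
for `V` tangent, `Dv X (der X W f) x (V x) = D²f̃ x (V x, W x) + Df̃ x (Dv X W x (V x))`. -/

theorem VF.add {X : Set E} {V W : E → E} (hV : VF X V) (hW : VF X W) : VF X (V + W) := by
  exact ⟨hV.an.add hW.an, fun x hx => add_mem (hV.tan x hx) (hW.tan x hx)⟩

theorem VF.smul {X : Set E} {V : E → E} (c : ℂ) (hV : VF X V) : VF X (c • V) := by
  exact ⟨hV.an.const_smul, fun x hx => Submodule.smul_mem _ c (hV.tan x hx)⟩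

theorem VF.rsmul {X : Set E} {V : E → E} (c : ℝ) (hV : VF X V) : VF X (c • V) := by
  have e : c • V = (c : ℂ) • V := funext fun x => (algebraMap_smul ℂ c (V x)).symm
  rw [e]
  exact hV.smul _

theorem VF.sub {X : Set E} {V W : E → E} (hV : VF X V) (hW : VF X W) : VF X (V - W) := by
  exact ⟨hV.an.sub hW.an, fun x hx => sub_mem (hV.tan x hx) (hW.tan x hx)⟩

/-- second derivatives -/
theorem der_der {n : ℕ} {X : Set E} (hX : Mfd n X) {V W : E → E} (hV : VF X V) (hW : VF X W) {f g : E → F} {x : E}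
    (hx : x ∈ X) (hg : AnalyticAt ℂ g x) (h : f =ᶠ[𝓝[X] x] g) :
    der X V (der X W f) x = fderiv ℂ (fderiv ℂ g) x (V x) (W x) + fderiv ℂ g x (Dv X W x (V x)) := by
  have h1 : der X W f =ᶠ[𝓝[X] x] fun y => fderiv ℂ g y (W y) := by
    filter_upwards [eventually_eventually_nhdsWithin.2 h, mem_nhdsWithin_of_mem_nhds hg.eventually_analyticAt,
      self_mem_nhdsWithin] with y h1 h2 h3 using Dv_eq_fderiv h3 h2.differentiableAt h1 (hW.tan y h3)
  have h2 := hg.fderiv.differentiableAt.hasFDerivAt.hasFDerivWithinAt.clm_apply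
    (hW.an.differentiableOn x hx).hasFDerivWithinAt
  rw [der, Dv_congr hx h1, Dv_of_has h2 (hV.tan x hx), add_comm]
  rfl

theorem bra_symm {g : E → F} {x : E} (hg : AnalyticAt ℂ g x) (v w : E) :
    fderiv ℂ (fderiv ℂ g) x v w = fderiv ℂ (fderiv ℂ g) x w v :=
  (hg.contDiffAt (n := ⊤)).isSymmSndFDerivAt le_top v w

/-- the bracket is tangent: apply `der_der` to the local equation `y - h (Ψ y)` of `X` -/
theorem VF.lie {n : ℕ} {X : Set E} (hX : Mfd n X) {V W : E → E} (hV : VF X V) (hW : VF X W) : VF X (br X V W) := by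
  refine ⟨((der_an hX hV hW.an).sub (der_an hX hW hV.an)).congr fun x hx => indicator_of_mem hx _, fun x hx => ?_⟩
  obtain ⟨h, Ψ, O, U, c, hU⟩ := hX x hx
  have hO := c.hW x ⟨hx, hU⟩
  have ha : AnalyticAt ℂ (fun y => h (Ψ y)) x := (c.ah _ hO.1).comp (c.aΨ x hU)
  have he : (fun y => y) =ᶠ[𝓝[X] x] fun y => h (Ψ y) := by
    filter_upwards [inter_mem_nhdsWithin X (c.oW.mem_nhds hU)] with y hy using (c.hW y hy).2.symm
  have key : ∀ {V W : E → E}, VF X V → VF X W → der X V W x =
      fderiv ℂ (fderiv ℂ fun y => h (Ψ y)) x (V x) (W x) + fderiv ℂ (fun y => h (Ψ y)) x (der X V W x) := by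
    intro V W hV hW
    have h1 := der_der hX hV hW hx ha he
    rwa [der, Dv_congr hx (f := der X W fun y => y) (g := W) (eventually_mem_nhdsWithin.mono fun y hy => Dv_id (hW.tan y hy))] at h1
  have h1 := (fderiv_comp_param (X := X) (f := fun y => y) ha.differentiableAt
    (((c.aΨ x hU).continuousAt.eventually (c.oO.mem_nhds hO.1)).mono fun y hy => (c.hO _ hy).1.1)
    differentiableWithinAt_id (der X V W x - der X W V x)).1
  rw [hO.2, map_sub] at h1
  rw [br, indicator_of_mem hx, key hV hW, key hW hV, bra_symm ha, add_sub_add_left_eq_sub]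
  exact h1

theorem der_br {n : ℕ} {X : Set E} (hX : Mfd n X) {V W : E → E} (hV : VF X V) (hW : VF X W) {f : E → F}
    (hf : AnalyticOn ℂ f X) {x : E} (hx : x ∈ X) :
    der X (br X V W) f x = der X V (der X W f) x - der X W (der X V f) x := by
  obtain ⟨g, hg, he⟩ := anOn_iff.1 hf x hx
  rw [der_der hX hV hW hx hg he, der_der hX hW hV hx hg he, bra_symm hg, add_sub_add_left_eq_sub, ← map_sub, der,
    Dv_eq_fderiv hx hg.differentiableAt he ((hV.lie hX hW).tan x hx), br, indicator_of_mem hx]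
  rfl

theorem br_apply {X : Set E} (V W : E → E) {x : E} (hx : x ∈ X) :
    br X V W x = Dv X W x (V x) - Dv X V x (W x) := by
  exact indicator_of_mem hx _

theorem br_off {X : Set E} (V W : E → E) {x : E} (hx : x ∉ X) : br X V W x = 0 := by
  exact indicator_of_notMem hx _

theorem br_self (X : Set E) (V : E → E) : br X V V = 0 := by
  funext x; simp [br]

theorem br_skew (X : Set E) (V W : E → E) : br X V W = -br X W V := by
  funext x
  by_cases hx : x ∈ X
  · rw [Pi.neg_apply, br_apply _ _ hx, br_apply _ _ hx, neg_sub]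
  · rw [Pi.neg_apply, br_off _ _ hx, br_off _ _ hx, neg_zero]

theorem br_add_left {X : Set E} {U V W : E → E} (hU : VF X U) (hV : VF X V) (hW : VF X W) :
    br X (U + V) W = br X U W + br X V W := by
  funext x
  by_cases hx : x ∈ X
  · have h : Dv X (U + V) x (W x) = _ :=
      Dv_add (hU.an.differentiableOn x hx) (hV.an.differentiableOn x hx) (hW.tan x hx)
    simp only [Pi.add_apply, br_apply _ _ hx, h, map_add]
    abel
  · simp only [Pi.add_apply, br_off _ _ hx, add_zero]

theorem br_add_right {X : Set E} {U V W : E → E} (hU : VF X U) (hV : VF X V) (hW : VF X W) :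
    br X U (V + W) = br X U V + br X U W := by
  rw [br_skew, br_add_left hV hW hU, br_skew X U V, br_skew X U W, neg_add]

theorem br_smul_left {X : Set E} {V W : E → E} (c : ℂ) (hV : VF X V) (hW : VF X W) :
    br X (c • V) W = c • br X V W := by
  funext x
  by_cases hx : x ∈ X
  · have h : Dv X (c • V) x (W x) = _ := Dv_const_smul c (hV.an.differentiableOn x hx) (hW.tan x hx)
    simp only [Pi.smul_apply, br_apply _ _ hx, h, map_smul, smul_sub]
  · simp only [Pi.smul_apply, br_off _ _ hx, smul_zero]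

theorem br_smul_right {X : Set E} {V W : E → E} (c : ℂ) (hV : VF X V) (hW : VF X W) :
    br X V (c • W) = c • br X V W := by
  rw [br_skew, br_smul_left c hW hV, br_skew X V W, smul_neg]

theorem br_rsmul_right {X : Set E} {V W : E → E} (c : ℝ) (hV : VF X V) (hW : VF X W) :
    br X V (c • W) = c • br X V W := by
  have e : ∀ U : E → E, c • U = (c : ℂ) • U := fun U => funext fun x => (algebraMap_smul ℂ c (U x)).symm
  rw [e, e, br_smul_right _ hV hW]

theorem brb_Dv_br {n : ℕ} {X : Set E} (hX : Mfd n X) {V W : E → E} (hV : VF X V) (hW : VF X W) {x v : E}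
    (hx : x ∈ X) (hv : v ∈ Tan X x) :
    Dv X (br X V W) x v = Dv X (der X V W) x v - Dv X (der X W V) x v := by
  rw [← Dv_sub (anW_diff (der_an hX hV hW.an x hx)) (anW_diff (der_an hX hW hV.an x hx)) hv]
  rw [Dv_congr hx (g := fun y => der X V W y - der X W V y)]
  filter_upwards [self_mem_nhdsWithin] with y hy
  exact indicator_of_mem hy _

theorem brb_Dv_der {X : Set E} {W : E → E} (hW : VF X W) {f g : E → F} {x v : E} (hx : x ∈ X)
    (hg : AnalyticAt ℂ g x) (h : f =ᶠ[𝓝[X] x] g) (hv : v ∈ Tan X x) :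
    Dv X (der X W f) x v = fderiv ℂ (fderiv ℂ g) x v (W x) + fderiv ℂ g x (Dv X W x v) := by
  have e : der X W f =ᶠ[𝓝[X] x] fun y => fderiv ℂ g y (W y) := by
    filter_upwards [self_mem_nhdsWithin, eventually_eventually_nhdsWithin.2 h,
      mem_nhdsWithin_of_mem_nhds hg.eventually_analyticAt] with y hy h1 h2
    exact Dv_eq_fderiv hy h2.differentiableAt h1 (hW.tan y hy)
  rw [Dv_congr hx e]
  have h1 : HasFDerivWithinAt (fderiv ℂ g) (fderiv ℂ (fderiv ℂ g) x) X x :=
    hg.fderiv.differentiableAt.hasFDerivAt.hasFDerivWithinAt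
  have h2 : HasFDerivWithinAt W (Dv X W x) X x := (anW_diff (hW.an x hx)).hasFDerivWithinAt
  rw [Dv_of_has (h1.clm_apply h2) hv]
  simp [add_comm]

theorem brb_tan {n : ℕ} {X : Set E} (hX : Mfd n X) {V : E → E} (hV : VF X V) {x v : E} (hx : x ∈ X)
    (h0 : V x = 0) (hv : v ∈ Tan X x) : Dv X V x v ∈ Tan X x := by
  obtain ⟨h, Ψ, hΨ, hh, h1, h2⟩ := hX.germ hx
  have hx' : h (Ψ x) = x := h2.self_of_nhdsWithin hx
  have hP : AnalyticAt ℂ (fun y => h (Ψ y)) x := hh.comp hΨ
  have e1 := brb_Dv_der hV (f := fun y => y) hx hP (h2.mono fun y hy => hy.symm) hv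
  have e2 : Dv X (der X V fun y => y) x = Dv X V x := by
    refine Dv_congr hx ?_
    filter_upwards [self_mem_nhdsWithin] with y hy
    exact Dv_id (hV.tan y hy)
  rw [e2, h0, map_zero, zero_add] at e1
  rw [e1]
  have e3 : fderiv ℂ (fun y => h (Ψ y)) x = (fderiv ℂ h (Ψ x)).comp (fderiv ℂ Ψ x) :=
    fderiv_comp x hh.differentiableAt hΨ.differentiableAt
  rw [e3]
  have e4 := (fderiv_comp_param (X := X) (f := fun y : E => y) hh.differentiableAt (h1.mono fun _ h => h.1)
    differentiableWithinAt_id (fderiv ℂ Ψ x (Dv X V x v))).1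
  rwa [hx'] at e4

theorem br_jacobi {n : ℕ} {X : Set E} (hX : Mfd n X) {U V W : E → E} (hU : VF X U) (hV : VF X V) (hW : VF X W) :
    br X U (br X V W) = br X (br X U V) W + br X V (br X U W) := by
  funext x
  by_cases hx : x ∈ X
  · have a1 := der_br hX hV hW hU.an hx
    have a2 := der_br hX hU hV hW.an hx
    have a3 := der_br hX hU hW hV.an hx
    have b1 := brb_Dv_br hX hV hW hx (hU.tan x hx)
    have b2 := brb_Dv_br hX hU hV hx (hW.tan x hx)
    have b3 := brb_Dv_br hX hU hW hx (hV.tan x hx)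
    rw [Pi.add_apply, br_apply _ _ hx, br_apply (br X U V) _ hx, br_apply V (br X U W) hx, b1, b2, b3]
    change Dv X U x (br X V W x) = Dv X (der X W U) x (V x) - Dv X (der X V U) x (W x) at a1
    change Dv X W x (br X U V x) = Dv X (der X V W) x (U x) - Dv X (der X U W) x (V x) at a2
    change Dv X V x (br X U W x) = Dv X (der X W V) x (U x) - Dv X (der X U V) x (W x) at a3
    rw [a1, a2, a3]
    abel
  · rw [Pi.add_apply, br_off _ _ hx, br_off _ _ hx, br_off _ _ hx, add_zero]

/-- linearisation of a bracket of fields vanishing at `x` -/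
theorem Dv_br {n : ℕ} {X : Set E} (hX : Mfd n X) {V W : E → E} (hV : VF X V) (hW : VF X W) {x v : E} (hx : x ∈ X)
    (h0 : V x = 0) (h0' : W x = 0) (hv : v ∈ Tan X x) :
    Dv X V x v ∈ Tan X x ∧ Dv X (br X V W) x v = Dv X W x (Dv X V x v) - Dv X V x (Dv X W x v) := by
  have t1 := brb_tan hX hV hx h0 hv
  have t2 := brb_tan hX hW hx h0' hv
  refine ⟨t1, ?_⟩
  obtain ⟨gV, a1, e1⟩ := (anW_iff hx).1 (hV.an x hx)
  obtain ⟨gW, a2, e2⟩ := (anW_iff hx).1 (hW.an x hx)
  rw [brb_Dv_br hX hV hW hx hv, brb_Dv_der hV hx a2 e2 hv, brb_Dv_der hW hx a1 e1 hv, h0, h0', map_zero, map_zero,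
    zero_add, zero_add, Dv_eq_fderiv hx a2.differentiableAt e2 t1, Dv_eq_fderiv hx a1.differentiableAt e1 t2]

theorem VF.pushf {n : ℕ} {X : Set E} {Y : Set F} (hX : Mfd n X) {f : E → F} {g : F → E} (h : Bih X Y f g)
    {W : E → E} (hW : VF X W) : VF Y (push X Y f g W) := by
  refine ⟨?_, fun y hy => ?_⟩
  · exact ((der_an hX hW h.af).comp h.ag h.mg).congr fun y hy => indicator_of_mem hy _
  · have := (h.Dv_left (h.mg hy) (hW.tan _ (h.mg hy))).1
    rw [h.fg y hy] at this
    rwa [push, indicator_of_mem hy]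

theorem push_apply {X : Set E} {Y : Set F} {f : E → F} {g : F → E} (h : Bih X Y f g) (W : E → E) {x : E}
    (hx : x ∈ X) : push X Y f g W (f x) = Dv X f x (W x) := by
  rw [push, indicator_of_mem (h.mf hx), h.gf x hx]

/-- related vector fields have related brackets -/
theorem br_related {n m : ℕ} {X : Set E} {Y : Set F} (hX : Mfd n X) (hY : Mfd m Y) {f : E → F}
    (hf : AnalyticOn ℂ f X) (hm : MapsTo f X Y) {V W : E → E} {V' W' : F → F} (hV : VF X V) (hW : VF X W)
    (hV' : VF Y V') (hW' : VF Y W') (h : ∀ x ∈ X, V' (f x) = der X V f x) (h' : ∀ x ∈ X, W' (f x) = der X W f x) :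
    ∀ x ∈ X, br Y V' W' (f x) = der X (br X V W) f x := by
  intro x hx
  have key : ∀ {A B : E → E} {A' B' : F → F}, VF X A → VF Y B' → (∀ x ∈ X, A' (f x) = der X A f x) →
      (∀ x ∈ X, B' (f x) = der X B f x) → Dv Y B' (f x) (A' (f x)) = der X A (der X B f) x := by
    intro A B A' B' hA hB' e e'
    rw [e x hx]
    have h1 := Dv_comp (anW_diff (hf x hx)) (anW_diff (hB'.an _ (hm hx)))
      (eventually_nhdsWithin_of_forall fun y hy => hm hy) (hA.tan x hx)
    rw [Dv_congr hx (g := der X B f) (eventually_nhdsWithin_of_forall e')] at h1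
    exact h1.symm
  rw [br_apply _ _ (hm hx), der_br hX hV hW hf hx, key hV hW' h h', key hW hV' h' h]

theorem push_br {n : ℕ} {X : Set E} {Y : Set F} (hX : Mfd n X) {f : E → F} {g : F → E} (h : Bih X Y f g)
    {V W : E → E} (hV : VF X V) (hW : VF X W) :
    push X Y f g (br X V W) = br Y (push X Y f g V) (push X Y f g W) := by
  funext y
  by_cases hy : y ∈ Y
  · have := br_related hX (hX.bih h) h.af h.mf hV hW (VF.pushf hX h hV) (VF.pushf hX h hW)
      (fun x hx => push_apply h V hx) (fun x hx => push_apply h W hx) (g y) (h.mg hy)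
    rw [h.fg y hy] at this
    rw [this, push, indicator_of_mem hy]
    rfl
  · rw [br_off _ _ hy, push, indicator_of_notMem hy]

theorem push_add {X : Set E} {Y : Set F} (f : E → F) (g : F → E) (V W : E → E) :
    push X Y f g (V + W) = push X Y f g V + push X Y f g W := by
  funext y
  by_cases hy : y ∈ Y <;> simp [push, hy]

theorem push_smul {X : Set E} {Y : Set F} (f : E → F) (g : F → E) (c : ℂ) (V : E → E) :
    push X Y f g (c • V) = c • push X Y f g V := by
  funext y
  by_cases hy : y ∈ Y <;> simp [push, hy]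

theorem push_rsmul {X : Set E} {Y : Set F} (f : E → F) (g : F → E) (c : ℝ) (V : E → E) :
    push X Y f g (c • V) = c • push X Y f g V := by
  funext y
  by_cases hy : y ∈ Y <;> simp [push, hy]

theorem push_trans {X : Set E} {Y : Set F} {Z : Set G} {f : E → F} {g : F → E} {f' : F → G} {g' : G → F}
    (h : Bih X Y f g) (h' : Bih Y Z f' g') {W : E → E} (hW : VF X W) :
    push Y Z f' g' (push X Y f g W) = push X Z (fun x => f' (f x)) (fun z => g (g' z)) W := by
  funext z
  by_cases hz : z ∈ Z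
  · have hy := h'.mg hz
    have hx := h.mg hy
    have h1 := Dv_comp (g := f') (Y := Y) (anW_diff (h.af _ hx)) (anW_diff (h'.af _ (h.mf hx)))
      (eventually_nhdsWithin_of_forall fun y hy => h.mf hy) (hW.tan _ hx)
    rw [h.fg _ hy] at h1
    simp only [push, indicator_of_mem hz, indicator_of_mem hy, h1]
  · simp only [push, indicator_of_notMem hz]

theorem push_id {X : Set E} {f g : E → E} (hf : ∀ x ∈ X, f x = x) (hg : ∀ x ∈ X, g x = x) {W : E → E}
    (hW : VF X W) (h0 : ∀ x, x ∉ X → W x = 0) : push X X f g W = W := by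
  funext y
  by_cases hy : y ∈ X
  · rw [push, indicator_of_mem hy, hg y hy, Dv_congr hy (g := fun y => y) (eventually_nhdsWithin_of_forall hf)]
    exact Dv_id (hW.tan y hy)
  · rw [push, indicator_of_notMem hy, h0 y hy]

end Crest.Agent.R264
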