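import Mathlib
import Crest.Agent.R72.Deriv

set_option autoImplicit false
set_option linter.unusedSectionVars false
open Set Filter Topology Metric

namespace Crest.Agent.R264

/-! One-parameter groups of linear maps. -/

variable {L : Type} [AddCommGroup L] [Module ℝ L] [FiniteDimensional ℝ L]

set_option backward.isDefEq.respectTransparency false in
open scoped Matrix.Norms.Operator in
theorem lin_exp_entry {ι : Type} [Fintype ι] [DecidableEq ι] (M : Matrix ι ι ℝ) (t : ℝ) (i j : ι) :
    HasDerivAt (fun s : ℝ => NormedSpace.exp (s • M) i j) ((M * NormedSpace.exp (t • M)) i j) t := by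
  have h := hasDerivAt_exp_smul_const' M t
  exact (LinearMap.toContinuousLinearMap (Matrix.entryLinearMap ℝ ℝ i j)).hasFDerivAt.comp_hasDerivAt t h

theorem lin_det_exp {ι : Type} [Fintype ι] [DecidableEq ι] (M : Matrix ι ι ℝ) (t : ℝ) :
    (NormedSpace.exp (t • M)).det = Real.exp (t * M.trace) := by
  have h1 : ∀ s : ℝ, HasDerivAt (fun s : ℝ => (NormedSpace.exp (s • M)).det)
      ((NormedSpace.exp (s • M)).det * M.trace) s := by
    intro s
    have := R72.hasDerivAt_det (fun i j => lin_exp_entry M s i j)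
    rwa [← Matrix.mul_assoc, Matrix.trace_mul_cycle, Matrix.mul_adjugate, Matrix.smul_mul, Matrix.one_mul,
      Matrix.trace_smul, smul_eq_mul] at this
  have h2 : ∀ s : ℝ, HasDerivAt (fun s : ℝ => (NormedSpace.exp (s • M)).det * Real.exp (-(s * M.trace))) 0 s := by
    intro s
    have := (h1 s).mul (((hasDerivAt_id s).mul_const M.trace).neg.exp)
    refine this.congr_deriv ?_
    simp only [Pi.neg_apply, id]
    ring
  have h3 := is_const_of_deriv_eq_zero (fun s => (h2 s).differentiableAt) (fun s => (h2 s).deriv) t 0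
  simp only [zero_smul, NormedSpace.exp_zero, Matrix.det_one, zero_mul, neg_zero, Real.exp_zero, mul_one,
    Real.exp_neg] at h3
  rwa [mul_inv_eq_one₀ (Real.exp_pos _).ne'] at h3

/-- `A t = exp (t • D)`, in a basis (`Matrix.toLin`, `NormedSpace.exp`, `hasDerivAt_exp_smul_const`); the determinant by
Jacobi's formula `R72.hasDerivAt_det` (`adjugate (X) * (X * M) = det X • M`). -/
theorem lin_exp (D : L →ₗ[ℝ] L) : ∃ A : ℝ → L →ₗ[ℝ] L,
    (∀ t, LinearMap.det (A t) = Real.exp (t * LinearMap.trace ℝ L D)) ∧ (∀ s t, A (s + t) = A s ∘ₗ A t) ∧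
      A 0 = LinearMap.id ∧ ∀ (ℓ : L →ₗ[ℝ] ℝ) a t, HasDerivAt (fun s => ℓ (A s a)) (ℓ (D (A t a))) t := by
  let b := Module.finBasis ℝ L
  let M := LinearMap.toMatrix b b D
  have hD : Matrix.toLin b b M = D := Matrix.toLin_toMatrix b b D
  refine ⟨fun t => Matrix.toLin b b (NormedSpace.exp (t • M)), fun t => ?_, fun s t => ?_, ?_, fun ℓ a t => ?_⟩
  · rw [LinearMap.det_toLin, lin_det_exp, LinearMap.trace_eq_matrix_trace ℝ b]
  · beta_reduce
    rw [add_smul, Matrix.exp_add_of_commute _ _ (((Commute.refl M).smul_left s).smul_right t),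
      Matrix.toLin_mul b b b]
  · simp
  · have e : ∀ X : Matrix _ _ ℝ, ℓ (Matrix.toLin b b X a) = ∑ i, (∑ j, X i j * b.repr a j) * ℓ (b i) := by
      intro X
      simp [Matrix.toLin_apply, Matrix.mulVec, dotProduct]
    have e2 : ℓ (D (Matrix.toLin b b (NormedSpace.exp (t • M)) a)) =
        ℓ (Matrix.toLin b b (M * NormedSpace.exp (t • M)) a) := by
      rw [Matrix.toLin_mul b b b, hD]; rfl
    simp only [e2, e]
    exact HasDerivAt.fun_sum fun i _ =>
      (HasDerivAt.fun_sum fun j _ => (lin_exp_entry M t i j).mul_const _).mul_const _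

/-- A bounded one-parameter group preserves an inner product: limit point of the Cesàro means
`(1/T) ∫₀ᵀ b₀ (A t a) (A t a') dt`.  Positivity from the boundedness of `A (-t)`; `D` commutes with `A t`. -/
theorem inv_form {D : L →ₗ[ℝ] L} {A : ℝ → L →ₗ[ℝ] L} (hadd : ∀ s t, A (s + t) = A s ∘ₗ A t) (h0 : A 0 = LinearMap.id)
    (hd : ∀ (ℓ : L →ₗ[ℝ] ℝ) a t, HasDerivAt (fun s => ℓ (A s a)) (ℓ (D (A t a))) t)
    (hb : ∀ (ℓ : L →ₗ[ℝ] ℝ) a, ∃ C, ∀ t, |ℓ (A t a)| ≤ C) :
    ∃ b : LinearMap.BilinForm ℝ L, (∀ a a', b a a' = b a' a) ∧ (∀ a, a ≠ 0 → 0 < b a a) ∧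
      ∀ a a', b (D a) a' + b a (D a') = 0 := by
  let e := Module.finBasis ℝ L
  have hcomm : ∀ t a, D (A t a) = A t (D a) := by
    intro t a
    refine e.ext_elem fun i => ?_
    have h1 : HasDerivAt (fun s => e.coord i (A (t + s) a)) (e.coord i (D (A t a))) 0 := by
      have := hd (e.coord i) a (t + 0)
      rw [add_zero] at this
      exact HasDerivAt.comp_const_add t 0 (by rwa [add_zero])
    have h2 := hd (e.coord i ∘ₗ A t) a 0
    simp only [h0, LinearMap.id_apply, LinearMap.comp_apply] at h2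
    simp only [hadd, LinearMap.comp_apply] at h1
    exact h1.unique h2
  let g : L → L → ℝ → ℝ := fun a a' t => ∑ i, e.coord i (A t a) * e.coord i (A t a')
  have hg : ∀ a a' t, HasDerivAt (g a a') (g (D a) a' t + g a (D a') t) t := by
    intro a a' t
    have := HasDerivAt.fun_sum (u := Finset.univ) fun i _ => (hd (e.coord i) a t).mul (hd (e.coord i) a' t)
    simp only [hcomm, Finset.sum_add_distrib] at this
    exact this
  have hgc : ∀ a a', Continuous (g a a') := fun a a' =>
    continuous_iff_continuousAt.2 fun t => (hg a a' t).continuousAt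
  have hgb : ∀ a a', ∃ K, ∀ t, |g a a' t| ≤ K := by
    intro a a'
    choose C hC using fun i => hb (e.coord i) a
    choose C' hC' using fun i => hb (e.coord i) a'
    refine ⟨∑ i, C i * C' i, fun t => (Finset.abs_sum_le_sum_abs _ _).trans (Finset.sum_le_sum fun i _ => ?_)⟩
    rw [abs_mul]
    exact mul_le_mul (hC i t) (hC' i t) (abs_nonneg _) ((abs_nonneg _).trans (hC i t))
  let β : L → L → ℝ → ℝ := fun a a' T => (∫ t in (0 : ℝ)..T, g a a' t) / T
  let U : Ultrafilter ℝ := Ultrafilter.of atTop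
  have hU : (U : Filter ℝ) ≤ atTop := Ultrafilter.of_le _
  have hlim : ∀ a a', ∃ x, Tendsto (β a a') U (𝓝 x) := by
    intro a a'
    obtain ⟨K, hK⟩ := hgb a a'
    obtain ⟨x, -, hx⟩ := (isCompact_Icc (a := -K) (b := K)).ultrafilter_le_nhds (U.map (β a a')) (by
      rw [Ultrafilter.coe_map, le_principal_iff, mem_map]
      filter_upwards [hU (eventually_gt_atTop 0)] with T hT
      have := intervalIntegral.norm_integral_le_of_norm_le_const (a := 0) (b := T) (f := g a a') (C := K)
        fun t _ => hK t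
      rw [sub_zero, abs_of_pos hT, Real.norm_eq_abs] at this
      refine abs_le.1 ?_
      simp only [β]
      rwa [abs_div, abs_of_pos hT, div_le_iff₀ hT])
    exact ⟨x, hx⟩
  choose B hB using hlim
  have hi : ∀ a a' T, IntervalIntegrable (g a a') MeasureTheory.volume 0 T := fun a a' T =>
    (hgc a a').intervalIntegrable _ _
  have hsym : ∀ a a', B a a' = B a' a := by
    intro a a'
    refine tendsto_nhds_unique (hB a a') ?_
    have : β a a' = β a' a := by
      funext T
      simp only [β, g, mul_comm]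
    rw [this]
    exact hB a' a
  have hadd' : ∀ a₁ a₂ a', B (a₁ + a₂) a' = B a₁ a' + B a₂ a' := by
    intro a₁ a₂ a'
    refine tendsto_nhds_unique (hB _ a') (((hB a₁ a').add (hB a₂ a')).congr fun T => ?_)
    simp only [β]
    rw [← add_div, ← intervalIntegral.integral_add (hi _ _ _) (hi _ _ _)]
    simp only [g, map_add, add_mul, Finset.sum_add_distrib]
  have hsmul : ∀ (c : ℝ) a a', B (c • a) a' = c • B a a' := by
    intro c a a'
    refine tendsto_nhds_unique (hB _ a') (((hB a a').const_mul c).congr fun T => ?_)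
    simp only [β]
    rw [← mul_div_assoc, ← intervalIntegral.integral_const_mul]
    simp only [g, map_smul, smul_eq_mul, mul_assoc, Finset.mul_sum]
  refine ⟨LinearMap.mk₂ ℝ B hadd' hsmul (fun a a₁ a₂ => by rw [hsym, hadd', hsym a₁, hsym a₂])
    (fun c a a' => by rw [hsym, hsmul, hsym a']), hsym, fun a ha => ?_, fun a a' => ?_⟩
  · obtain ⟨i, hi0⟩ : ∃ i, e.coord i a ≠ 0 := by
      by_contra hne
      push Not at hne
      exact ha (e.ext_elem fun i => by simpa using hne i)
    choose C hC using fun j => hb (e.coord i) (e j)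
    have hS : 0 ≤ ∑ j, C j ^ 2 := Finset.sum_nonneg fun j _ => sq_nonneg _
    have hlow : ∀ t, e.coord i a ^ 2 / (∑ j, C j ^ 2 + 1) ≤ g a a t := by
      intro t
      have h1 : e.coord i a = ∑ j, e.coord j (A t a) * e.coord i (A (-t) (e j)) := by
        have h2 : a = A (-t) (A t a) := by
          rw [← LinearMap.comp_apply, ← hadd, neg_add_cancel, h0]; rfl
        conv_lhs => rw [h2, ← e.sum_repr (A t a)]
        simp only [map_sum, map_smul, smul_eq_mul, Module.Basis.coord_apply]
      have h3 := Finset.sum_mul_sq_le_sq_mul_sq Finset.univ (fun j => e.coord j (A t a))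
        (fun j => e.coord i (A (-t) (e j)))
      rw [← h1] at h3
      have h4 : ∑ j, e.coord i (A (-t) (e j)) ^ 2 ≤ ∑ j, C j ^ 2 := Finset.sum_le_sum fun j _ =>
        sq_le_sq' (abs_le.1 (hC j (-t))).1 (abs_le.1 (hC j (-t))).2
      have h5 : g a a t = ∑ j, e.coord j (A t a) ^ 2 := by simp only [g, sq]
      have h6 : 0 ≤ ∑ j, e.coord j (A t a) ^ 2 := Finset.sum_nonneg fun j _ => sq_nonneg _
      rw [h5, div_le_iff₀ (by linarith)]
      nlinarith
    refine lt_of_lt_of_le (div_pos (sq_pos_of_ne_zero hi0) (by linarith : 0 < ∑ j, C j ^ 2 + 1)) ?_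
    refine ge_of_tendsto (hB a a) ?_
    filter_upwards [hU (eventually_gt_atTop 0)] with T hT
    have := intervalIntegral.integral_mono_on hT.le (intervalIntegrable_const (μ := MeasureTheory.volume)
      (c := e.coord i a ^ 2 / (∑ j, C j ^ 2 + 1))) (hi a a T) fun t _ => hlow t
    simp only [β]
    rw [le_div_iff₀ hT]
    rwa [intervalIntegral.integral_const, sub_zero, smul_eq_mul, mul_comm] at this
  · obtain ⟨K, hK⟩ := hgb a a'
    refine tendsto_nhds_unique ((hB (D a) a').add (hB a (D a'))) ?_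
    have h1 : Tendsto (fun T : ℝ => (K + K) / T) U (𝓝 0) :=
      (tendsto_const_nhds.div_atTop tendsto_id).mono_left hU
    refine squeeze_zero_norm' ?_ h1
    filter_upwards [hU (eventually_gt_atTop 0)] with T hT
    simp only [β]
    rw [← add_div, ← intervalIntegral.integral_add (hi _ _ _) (hi _ _ _),
      intervalIntegral.integral_eq_sub_of_hasDerivAt (fun t _ => hg a a' t) ((hi _ _ _).add (hi _ _ _)),
      Real.norm_eq_abs, abs_div, abs_of_pos hT]
    gcongr
    exact (abs_sub _ _).trans (add_le_add (hK _) (hK _))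

end Crest.Agent.R264
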