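import Crest.Agent.R264.Lie.Trot
import Crest.Agent.R264.Lie.Lin

set_option autoImplicit false
set_option linter.unusedSectionVars false
open Set Filter Topology Metric Complex

namespace Crest.Agent.R264

variable {E F G : Type}
  [NormedAddCommGroup E] [NormedSpace ℂ E] [NormedSpace ℝ E] [IsScalarTower ℝ ℂ E] [FiniteDimensional ℂ E]
  [NormedAddCommGroup F] [NormedSpace ℂ F] [NormedSpace ℝ F] [IsScalarTower ℝ ℂ F] [FiniteDimensional ℂ F]
  [NormedAddCommGroup G] [NormedSpace ℂ G] [NormedSpace ℝ G] [IsScalarTower ℝ ℂ G] [FiniteDimensional ℂ G]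

/-! Cartan's uniqueness theorem, finite dimensionality, isotropy. -/

/-- Cartan uniqueness.  `A = lim_U (1/k) Σ_{j<k} g^[j]` (Montel) has `A ∘ g = A`, `DA = id` on `Tan`, so `A` is
injective near `x` (compose with a chart, `loc_inv`), `g = id` near `x`, `ident`. -/
theorem cartan {n : ℕ} {X : Set E} (hX : Mfd n X) (hc : IsPreconnected X) (hb : Bornology.IsBounded X) {g : E → E}
    (hg : AnalyticOn ℂ g X) (hm : MapsTo g X X) {x : E} (hx : x ∈ X) (h0 : g x = x)
    (hd : ∀ v ∈ Tan X x, Dv X g x v = v) : ∀ y ∈ X, g y = y := by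
  obtain ⟨R, hR⟩ := hb.exists_norm_le
  set f : ℕ → E → E := fun k y => ((k + 1 : ℕ) : ℂ)⁻¹ • ∑ j ∈ Finset.range (k + 1), g^[j] y with hf
  have af : ∀ k, AnalyticOn ℂ (f k) X := fun k y hy =>
    AnalyticWithinAt.smul (f := fun _ => _) analyticWithinAt_const (Finset.analyticWithinAt_fun_sum _ fun j _ => an_iter hg hm j y hy)
  have hk : ∀ k : ℕ, ((k + 1 : ℕ) : ℂ) ≠ 0 := fun k => Nat.cast_ne_zero.2 k.succ_ne_zero
  have bf : ∀ k, ∀ y ∈ X, ‖f k y‖ ≤ R := fun k y hy => by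
    rw [hf, norm_smul, norm_inv, Complex.norm_natCast, inv_mul_le_iff₀ (by positivity)]
    refine (norm_sum_le _ _).trans ((Finset.sum_le_sum fun j _ => hR _ (hm.iterate j hy)).trans ?_)
    simp
  set U := Ultrafilter.of (atTop : Filter ℕ)
  have hU : (U : Filter ℕ) ≤ atTop := Ultrafilter.of_le _
  have loc : ∀ x ∈ X, ∃ O ∈ 𝓝 x, ∀ᶠ k in U, AnalyticOn ℂ (f k) (X ∩ O) := fun x _ =>
    ⟨univ, univ_mem, Eventually.of_forall fun k => (af k).mono inter_subset_left⟩
  obtain ⟨A, aA, lA⟩ := montel hX U (f := f) fun x _ => ⟨univ, univ_mem, R,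
    Eventually.of_forall fun k => ⟨(af k).mono inter_subset_left, fun y hy => bf k y hy.1⟩⟩
  have inv : ∀ y ∈ X, A (g y) = A y := fun y hy => by
    have h1 : Tendsto (fun k => f k (g y) - f k y) atTop (𝓝 0) := by
      refine squeeze_zero_norm (a := fun k : ℕ => (R + R) * (1 / ((k : ℝ) + 1))) (fun k => ?_) ?_
      · have : ∑ j ∈ Finset.range (k + 1), g^[j] (g y) - ∑ j ∈ Finset.range (k + 1), g^[j] y = g^[k + 1] y - y := by
          rw [← Finset.sum_sub_distrib]
          simpa only [← Function.iterate_succ_apply, Function.iterate_zero_apply] using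
            Finset.sum_range_sub (fun j => g^[j] y) (k + 1)
        rw [hf]
        simp only
        rw [← smul_sub, this, norm_smul, norm_inv, Complex.norm_natCast, mul_comm, one_div, Nat.cast_succ]
        exact mul_le_mul_of_nonneg_right (norm_sub_le_of_le (hR _ (hm.iterate _ hy)) (hR _ hy)) (by positivity)
      · simpa using tendsto_one_div_add_atTop_nhds_zero_nat.const_mul (R + R)
    exact sub_eq_zero.1 (tendsto_nhds_unique ((lA.tendsto_at (hm hy)).sub (lA.tendsto_at hy)) (h1.mono_left hU))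
  have dA : ∀ v ∈ Tan X x, Dv X A x v = v := fun v hv => by
    have h1 : ∀ j : ℕ, Dv X g^[j] x v = v := fun j => by
      induction j with
      | zero => exact Dv_id hv
      | succ j ih =>
        have := Dv_comp (Y := X) (hg.differentiableOn x hx) (g := g^[j])
          ((an_iter hg hm j).differentiableOn _ (hm hx)) (eventually_mem_nhdsWithin.mono hm) hv
        rw [h0, hd v hv, ih] at this
        exact this
    have h2 : ∀ k, Dv X (f k) x v = v := fun k => by
      rw [Dv_of_has ((HasFDerivWithinAt.fun_sum fun j _ =>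
        ((an_iter hg hm j).differentiableOn x hx).hasFDerivWithinAt).fun_const_smul _) hv]
      have : ∀ j : ℕ, fderivWithin ℂ g^[j] X x v = v := h1
      simp only [smul_apply, sum_apply, this, Finset.sum_const, Finset.card_range]
      rw [← Nat.cast_smul_eq_nsmul ℂ, smul_smul, inv_mul_cancel₀ (hk k), one_smul]
    have := Dv_tendsto hX loc lA hx hv
    simp only [h2] at this
    exact (tendsto_nhds_unique tendsto_const_nhds this).symm
  obtain ⟨O, o1, o2, B, hB⟩ := loc_linv hX aA hx fun v hv e => by rwa [dA v hv] at e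
  refine ident hX hc hg analyticOn_id hx ?_
  filter_upwards [inter_mem_nhdsWithin X (o1.mem_nhds o2),
    (hg.continuousOn x hx).eventually (o1.mem_nhds (h0.symm ▸ o2))] with y y1 y2
  rw [← (hB _ ⟨hm y1.1, y2⟩).2, inv y y1.1, (hB y y1).2]

theorem Gen.eq_zero {n : ℕ} {X : Set E} (hX : CM n X) {W : E → E} (hW : Gen X W) {x : E} (hx : x ∈ X)
    (h0 : W x = 0) (hd : ∀ v ∈ Tan X x, Dv X W x v = 0) : W = 0 := by
  have hf := hW.isFlow
  have h1 : ∀ t, ∀ y ∈ X, fl X W t y = y := fun t =>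
    cartan hX.mfd hX.conn.isPreconnected hX.bdd (hf.an t) (hf.maps t) hx (hW.fl_fix hx h0 t) fun v hv => by
      have d : ∀ s, HasDerivAt (fun s => Dv X (fl X W s) x v) 0 s := fun s => by
        have := hW.Dv_fl hX.mfd hx hv s
        have m := Dv_mem_tan (Y := X) ((hf.an s).differentiableOn x hx)
          (eventually_mem_nhdsWithin.mono (hf.maps s)) hv
        rw [hW.fl_fix hx h0 s] at this m
        rwa [hd _ m] at this
      rw [is_const_of_deriv_eq_zero (fun s => (d s).differentiableAt) (fun s => (d s).deriv) t 0,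
        hW.Dv_fl_zero hx hv]
  funext y
  by_cases hy : y ∈ X
  · have := hf.der y hy
    simp only [h1 _ y hy] at this
    exact this.unique (hasDerivAt_const _ _)
  · exact hW.off y hy

/-- the full Lie algebra (a subtype of `E → E`; finite-dimensional since the 1-jet at a point is injective) -/
theorem exists_lieRep {n : ℕ} {X : Set E} (hX : CM n X) :
    ∃ (L : Type) (_ : LieRing L) (_ : LieAlgebra ℝ L) (_ : FiniteDimensional ℝ L) (ι : L →ₗ[ℝ] (E → E)),
      LieRep X ι ∧ ∀ W, Gen X W → ∃ a, ι a = W := by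
  let _ : LieRing (genSub hX) :=
    { (inferInstance : AddCommGroup (genSub hX)) with
      bracket := fun a b => ⟨br X a.1 b.1, Gen.lie hX a.2 b.2⟩
      add_lie := fun a b c => Subtype.ext (br_add_left (Gen.vf a.2) (Gen.vf b.2) (Gen.vf c.2))
      lie_add := fun a b c => Subtype.ext (br_add_right (Gen.vf a.2) (Gen.vf b.2) (Gen.vf c.2))
      lie_self := fun a => Subtype.ext (br_self X a.1)
      leibniz_lie := fun a b c => Subtype.ext (br_jacobi hX.mfd (Gen.vf a.2) (Gen.vf b.2) (Gen.vf c.2)) }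
  let _ : LieAlgebra ℝ (genSub hX) :=
    { (inferInstance : Module ℝ (genSub hX)) with
      lie_smul := fun c a b => Subtype.ext (br_rsmul_right c (Gen.vf a.2) (Gen.vf b.2)) }
  obtain ⟨x, hx⟩ := hX.conn.nonempty
  let b := Module.finBasis ℂ (Tan X x)
  let j : genSub hX →ₗ[ℝ] E × (Fin (Module.finrank ℂ (Tan X x)) → E) :=
    { toFun := fun a => (a.1 x, fun i => Dv X a.1 x (b i))
      map_add' := fun a a' => Prod.ext rfl (funext fun i =>
        Dv_add ((Gen.an a.2).differentiableOn x hx) ((Gen.an a'.2).differentiableOn x hx) (b i).2)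
      map_smul' := fun c a => Prod.ext rfl (funext fun i =>
        Dv_rsmul c ((Gen.an a.2).differentiableOn x hx) (b i).2) }
  have hj : Function.Injective j := (injective_iff_map_eq_zero j).2 fun a ha => by
    refine Subtype.ext (Gen.eq_zero hX a.2 hx (congrArg Prod.fst ha) fun v hv => ?_)
    have : (Dv X a.1 x : E →ₗ[ℂ] E).comp (Tan X x).subtype = 0 := b.ext fun i => congrFun (congrArg Prod.snd ha) i
    exact LinearMap.congr_fun this ⟨v, hv⟩
  exact ⟨genSub hX, inferInstance, inferInstance, Module.Finite.of_injective j hj, (genSub hX).subtype,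
    ⟨Subtype.val_injective, fun a => a.2, fun _ _ => rfl⟩, fun W hW => ⟨⟨W, hW⟩, rfl⟩⟩

variable {L : Type} [LieRing L] [LieAlgebra ℝ L] [FiniteDimensional ℝ L] {ι : L →ₗ[ℝ] (E → E)}

theorem LieRep.sub {X : Set E} (h : LieRep X ι) (K : LieSubalgebra ℝ L) :
    LieRep X (ι.comp (K.incl : K →ₗ⁅ℝ⁆ L).toLinearMap) := by
  exact ⟨h.inj.comp Subtype.val_injective, fun a => h.gen a.1, fun a b => h.lie a.1 b.1⟩

/-- product rule, in a basis -/
theorem cb_prod {P : ℝ → L →ₗ[ℝ] E} {P' : L →ₗ[ℝ] E} {c : ℝ → L} {c' : L} {t : ℝ}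
    (hP : ∀ a, HasDerivAt (fun s => P s a) (P' a) t)
    (hc : ∀ ℓ : L →ₗ[ℝ] ℝ, HasDerivAt (fun s => ℓ (c s)) (ℓ c') t) :
    HasDerivAt (fun s => P s (c s)) (P' (c t) + P t c') t := by
  classical
  let e := Module.finBasis ℝ L
  have key : ∀ (Q : L →ₗ[ℝ] E) a, Q a = ∑ i, e.coord i a • Q (e i) := by
    intro Q a
    conv_lhs => rw [← e.sum_repr a]
    simp only [map_sum, map_smul, Module.Basis.coord_apply]
  have h1 : HasDerivAt (fun s => ∑ i, e.coord i (c s) • P s (e i))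
      (∑ i, (e.coord i (c t) • P' (e i) + e.coord i c' • P t (e i))) t :=
    HasDerivAt.fun_sum fun i _ => (hc (e.coord i)).fun_smul (hP (e i))
  rw [Finset.sum_add_distrib, ← key, ← key] at h1
  exact h1.congr_of_eventuallyEq (Eventually.of_forall fun s => key _ _)

/-- push-forward evaluated at a point, as a linear map -/
noncomputable def cbP (X : Set E) (f g : E → E) (ι : L →ₗ[ℝ] (E → E)) (y : E) : L →ₗ[ℝ] E where
  toFun a := push X X f g (ι a) y
  map_add' a b := by rw [map_add, push_add]; rfl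
  map_smul' c a := by rw [map_smul, push_rsmul]; rfl

/-- The adjoint action of a flow on `L`: `Ad t = exp (-t ad v)`.  (Put a norm on `L` through a basis; for fixed `y`
the function `s ↦ push (fl v (-s)) (fl v s) (ι (exp (-s ad v) a)) y` has derivative zero.) -/
theorem LieRep.Ad {n : ℕ} {X : Set E} (hX : Mfd n X) (h : LieRep X ι) (v : L) :
    ∃ Ad : ℝ → L →ₗ[ℝ] L, (∀ t a, ι (Ad t a) = push X X (fl X (ι v) t) (fl X (ι v) (-t)) (ι a)) ∧
      (∀ t, LinearMap.det (Ad t) = Real.exp (-(t * LinearMap.trace ℝ L (LieAlgebra.ad ℝ L v)))) ∧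
      (∀ s t, Ad (s + t) = Ad s ∘ₗ Ad t) ∧ Ad 0 = LinearMap.id ∧
      ∀ (ℓ : L →ₗ[ℝ] ℝ) a t, HasDerivAt (fun s => ℓ (Ad s a)) (-ℓ ⁅v, Ad t a⁆) t := by
  obtain ⟨A, h1, h2, h3, h4⟩ := lin_exp (-LieAlgebra.ad ℝ L v)
  have h5 : ∀ (ℓ : L →ₗ[ℝ] ℝ) a t, HasDerivAt (fun s => ℓ (A s a)) (-ℓ ⁅v, A t a⁆) t := fun ℓ a t => by
    simpa only [LinearMap.neg_apply, LieAlgebra.ad_apply, map_neg] using h4 ℓ a t
  refine ⟨A, fun t a => ?_, fun t => ?_, h2, h3, h5⟩
  · funext y
    by_cases hy : y ∈ X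
    swap
    · rw [(h.gen _).off y hy, push, indicator_of_notMem hy]
    let P : ℝ → L →ₗ[ℝ] E := fun s => cbP X (fl X (ι v) s) (fl X (ι v) (-s)) ι y
    have hP : ∀ s b, HasDerivAt (fun s => P s b) (-(P s ⁅v, b⁆)) s := by
      intro s b
      have := (h.gen v).push_fl hX (h.gen b).vf hy s
      rw [(h.gen v).br_push hX (h.gen b).vf, ← h.lie] at this
      exact this
    have hd : ∀ s, HasDerivAt (fun s => P (t - s) (A s a)) 0 s := by
      intro s
      have e1 : ∀ b, HasDerivAt (fun s => P (t - s) b) ((P (t - s) ∘ₗ LieAlgebra.ad ℝ L v) b) s := by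
        intro b
        have := (hP (t - s) b).scomp s ((hasDerivAt_id s).const_sub t)
        simpa [Function.comp_def] using this
      have e2 := cb_prod (P := fun s => P (t - s)) (c := fun s => A s a) (c' := -⁅v, A s a⁆) e1
        (fun ℓ => by simpa only [map_neg] using h5 ℓ a s)
      simpa only [LinearMap.comp_apply, LieAlgebra.ad_apply, map_neg, add_neg_cancel] using e2
    have := is_const_of_deriv_eq_zero (fun s => (hd s).differentiableAt) (fun s => (hd s).deriv) t 0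
    simp only [sub_self, sub_zero, h3, LinearMap.id_apply] at this
    exact ((h.gen v).push_zero (h.gen _).vf hy).symm.trans this
  · rw [h1, map_neg, mul_neg]

/-- For `y ∈ X` near `x`, `t ↦ ι (Ad t a) y = Dv (fl t) z (ι a z)`, `z = fl (-t) y`, is bounded (`unif_lip` twice,
`fl t x = x`).  The functionals `ℓ` with bounded `ℓ (Ad t a)` form a subspace of the dual with trivial
`dualCoannihilator` (`ident`, `h.inj`). -/
theorem LieRep.iso_bdd {n : ℕ} {X : Set E} (hX : CM n X) (h : LieRep X ι) {x : E} (hx : x ∈ X) {k : L}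
    (hk : ι k x = 0) {Ad : ℝ → L →ₗ[ℝ] L}
    (hA : ∀ t a, ι (Ad t a) = push X X (fl X (ι k) t) (fl X (ι k) (-t)) (ι a)) (ℓ : L →ₗ[ℝ] ℝ) (a : L) :
    ∃ C, ∀ t, |ℓ (Ad t a)| ≤ C := by
  obtain ⟨M, hM⟩ := hX.bdd.exists_norm_le
  have hM0 : 0 ≤ M := (norm_nonneg _).trans (hM x hx)
  have hf := (h.gen k).isFlow
  obtain ⟨O, hO, -, K, hK, hL⟩ := unif_lip (F := E) hX.mfd hx (U := univ) univ_mem
  have hL' := fun t => hL (fl X (ι k) t) M (by simpa using hf.an t) (fun y hy => hM _ (hf.maps t hy.1))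
  obtain ⟨ρ, hρ, hρ'⟩ := near_est (h.gen a).an.continuousOn hx one_pos
  obtain ⟨ρ', hρ1, hρ2⟩ := Metric.mem_nhds_iff.1 (inter_mem hO (ball_mem_nhds x hρ))
  -- the bound near `x`
  have hb : ∀ᶠ y in 𝓝[X] x, ∀ t, ‖ι (Ad t a) y‖ ≤ K * M * (‖ι a x‖ + 1) := by
    have e1 : ∀ᶠ y in 𝓝 x, K * M * ‖y - x‖ < ρ' := by
      have : ContinuousAt (fun y => K * M * ‖y - x‖) x := by fun_prop
      exact this.eventually_lt continuousAt_const (by simpa using hρ1)
    filter_upwards [self_mem_nhdsWithin, nhdsWithin_le_nhds hO, nhdsWithin_le_nhds e1] with y hy hyO hy1 t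
    have hz : fl X (ι k) (-t) y ∈ X := hf.maps _ hy
    have hz1 : fl X (ι k) (-t) y ∈ ball x ρ' := by
      have := (hL' (-t)).1 y ⟨hy, hyO⟩ x ⟨hx, mem_of_mem_nhds hO⟩
      rw [(h.gen k).fl_fix hx hk] at this
      exact mem_ball_iff_norm.2 (this.trans_lt hy1)
    have hz2 := hρ2 hz1
    rw [hA, push, indicator_of_mem hy]
    refine ((hL' t).2 _ ⟨hz, hz2.1⟩ _ ((h.gen a).vf.tan _ hz)).trans ?_
    refine mul_le_mul_of_nonneg_left ?_ (mul_nonneg hK hM0)
    have := hρ' _ ⟨hz, hz2.2⟩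
    linarith [norm_sub_norm_le (ι a (fl X (ι k) (-t) y)) (ι a x)]
  let B : Submodule ℝ (Module.Dual ℝ L) :=
    { carrier := {ℓ | ∃ C, ∀ t, |ℓ (Ad t a)| ≤ C}
      add_mem' := by
        rintro ℓ ℓ' ⟨C, hC⟩ ⟨C', hC'⟩
        exact ⟨C + C', fun t => (abs_add_le _ _).trans (add_le_add (hC t) (hC' t))⟩
      zero_mem' := ⟨0, fun t => by simp⟩
      smul_mem' := by
        rintro c ℓ ⟨C, hC⟩
        refine ⟨|c| * C, fun t => ?_⟩
        rw [LinearMap.smul_apply, smul_eq_mul, abs_mul]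
        exact mul_le_mul_of_nonneg_left (hC t) (abs_nonneg _) }
  have hB : B.dualCoannihilator = ⊥ := by
    rw [eq_bot_iff]
    intro b hb'
    rw [Submodule.mem_dualCoannihilator] at hb'
    have e0 : ι b =ᶠ[𝓝[X] x] fun _ => 0 := by
      filter_upwards [hb] with y hy
      refine (SeparatingDual.eq_zero_iff_forall_dual_eq_zero (R := ℝ) _).2 fun φ => ?_
      refine hb' (φ.toLinearMap ∘ₗ evx ι y) ⟨‖φ‖ * (K * M * (‖ι a x‖ + 1)), fun t => ?_⟩
      exact (φ.le_opNorm _).trans (mul_le_mul_of_nonneg_left (hy t) (norm_nonneg _))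
    have e1 := ident hX.mfd hX.conn.isPreconnected (h.gen b).an analyticOn_const hx e0
    have e2 : ι b = ι 0 := by
      rw [map_zero]
      funext y
      by_cases hy : y ∈ X
      · exact e1 y hy
      · exact (h.gen b).off y hy
    exact h.inj e2
  have hT : B = ⊤ := by
    rw [← Subspace.dualCoannihilator_dualAnnihilator_eq (W := B), hB, Submodule.dualAnnihilator_bot]
  have : ℓ ∈ B := hT ▸ Submodule.mem_top
  exact this

/-- Isotropy acts by skew operators.  The maps `Ad t` are uniformly bounded (1-jets at `x` of `push (fl t) W`, Cauchy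
estimates `unif_lip`: `fl t x = x`), average any inner product over `t` (Cesàro means along an ultrafilter), or use
`b a a' = lim_U (1/k) ∫₀^k b₀ (Ad t a) (Ad t a') dt`. -/
theorem LieRep.iso {n : ℕ} {X : Set E} (hX : CM n X) (h : LieRep X ι) {x : E} (hx : x ∈ X) {k : L} (hk : ι k x = 0) :
    ∃ b : LinearMap.BilinForm ℝ L, (∀ a a', b a a' = b a' a) ∧ (∀ a, a ≠ 0 → 0 < b a a) ∧
      ∀ a a', b ⁅k, a⁆ a' + b a ⁅k, a'⁆ = 0 := by
  obtain ⟨Ad, h1, -, h3, h4, h5⟩ := h.Ad hX.mfd k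
  obtain ⟨b, b1, b2, b3⟩ := inv_form (D := -LieAlgebra.ad ℝ L k) h3 h4
    (fun ℓ a t => by simpa only [LinearMap.neg_apply, LieAlgebra.ad_apply, map_neg] using h5 ℓ a t)
    (h.iso_bdd hX hx hk h1)
  exact ⟨b, b1, b2, fun a a' => by 
    have := b3 a a'
    simp only [LinearMap.neg_apply, LieAlgebra.ad_apply, map_neg] at this
    linarith⟩

/-- pure linear algebra: `tr (ad k ∘ ad k) = - Σ |[k, e_i]|²` -/
theorem killing_neg_of_skew {k : L} {b : LinearMap.BilinForm ℝ L} (hs : ∀ a a', b a a' = b a' a)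
    (hp : ∀ a, a ≠ 0 → 0 < b a a) (hk : ∀ a a' : L, b ⁅k, a⁆ a' + b a ⁅k, a'⁆ = 0) (hne : ∃ a : L, ⁅k, a⁆ ≠ 0) :
    killingForm ℝ L k k < 0 := by
  obtain ⟨v, hv⟩ := LinearMap.BilinForm.exists_orthogonal_basis (B := b) ⟨fun a a' => hs a a'⟩
  have hr : ∀ x i, v.repr x i = b (v i) x / b (v i) (v i) := by
    intro x i
    rw [eq_div_iff (hp _ (v.ne_zero i)).ne']
    conv_rhs => rw [← v.sum_repr x]
    rw [map_sum, Finset.sum_eq_single i (fun j _ hj => by
      rw [map_smul, LinearMap.isOrthoᵢ_def.1 hv i j hj.symm, smul_zero]) (by simp)]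
    simp
  have hnn : ∀ a, 0 ≤ b a a := fun a => by
    rcases eq_or_ne a 0 with rfl | h
    · simp
    · exact (hp a h).le
  rw [killingForm_apply_apply, LinearMap.trace_eq_matrix_trace ℝ v, Matrix.trace]
  have h1 : ∀ i, Matrix.diag (LinearMap.toMatrix v v (LieAlgebra.ad ℝ L k ∘ₗ LieAlgebra.ad ℝ L k)) i =
      -(b ⁅k, v i⁆ ⁅k, v i⁆ / b (v i) (v i)) := by
    intro i
    rw [Matrix.diag_apply, LinearMap.toMatrix_apply, hr, ← neg_div]
    congr 1
    have := hk (v i) ⁅k, v i⁆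
    simp only [LinearMap.comp_apply, LieAlgebra.ad_apply]
    linarith
  simp only [h1, Finset.sum_neg_distrib, neg_lt_zero]
  obtain ⟨i, hi⟩ : ∃ i, ⁅k, v i⁆ ≠ 0 := by
    by_contra hc
    push Not at hc
    obtain ⟨a, ha⟩ := hne
    have : LieAlgebra.ad ℝ L k = 0 := v.ext fun i => by simpa using hc i
    exact ha (by simpa using congrArg (fun f : L →ₗ[ℝ] L => f a) this)
  exact Finset.sum_pos' (fun j _ => div_nonneg (hnn _) (hnn _))
    ⟨i, Finset.mem_univ _, div_pos (hp _ hi) (hp _ (v.ne_zero i))⟩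

/-- `hol_fl` with `F = J → ℂ`, `A y = ∑ j, (proj j).smulRight (g j y)`, `g j` analytic extensions of the `W j` -/
theorem exp_hol {n : ℕ} {X : Set E} (hX : CM n X) {J : Type} [Fintype J] {W : J → E → E} (hW : ∀ j, Gen X (W j))
    {x : E} (hx : x ∈ X) : ∃ r > 0, ∃ Φ : (J → ℂ) × E → E, AnalyticOnNhd ℂ Φ (ball (0, x) r) ∧
      (∀ a, fderiv ℂ Φ (0, x) (a, 0) = ∑ j, a j • W j x) ∧ ∀ c : J → ℝ, ‖c‖ < r → ∀ y ∈ X ∩ ball x r,
        fl X (∑ j, c j • W j) 1 y = Φ (fun j => (c j : ℂ), y) := by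
  choose g hg hWg using fun j => anOn_iff.1 (hW j).an x hx
  let A : E → (J → ℂ) →L[ℂ] E := fun y => ∑ j, (ContinuousLinearMap.proj j : (J → ℂ) →L[ℂ] ℂ).smulRight (g j y)
  have hA : AnalyticAt ℂ A x := by
    refine Finset.analyticAt_fun_sum _ fun j _ => ?_
    exact ((ContinuousLinearMap.smulRightL ℂ (J → ℂ) E (ContinuousLinearMap.proj j)).analyticAt _).comp (hg j)
  have hAa : ∀ y a, A y a = ∑ j, a j • g j y := fun y a => by
    simp [A]
  have hN : {y | y ∈ X → ∀ j, W j y = g j y} ∈ 𝓝 x := eventually_nhdsWithin_iff.1 (eventually_all.2 hWg)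
  obtain ⟨r, hr, Φ, h1, -, h3, h4⟩ := hol_fl X hA hN
  refine ⟨r, hr, Φ, h1, fun a => ?_, fun c hc y hy => ?_⟩
  · rw [h3, hAa]
    exact Finset.sum_congr rfl fun j _ => by rw [mem_of_mem_nhds hN hx j]
  · have := h4 (∑ j, c j • W j) (fun j => (c j : ℂ)) (Gen.sum hX hW c) (fun z hz => by
      rw [hAa, Finset.sum_apply]
      exact Finset.sum_congr rfl fun j _ => by rw [Pi.smul_apply, hz.2 hz.1 j, fl_rsmul]) y hy.1 1 (by
      rw [one_smul, ← ball_prod_same]
      refine ⟨?_, hy.2⟩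
      rw [mem_ball_zero_iff, pi_norm_lt_iff hr]
      intro j
      rw [Complex.norm_real]
      exact (norm_le_pi_norm c j).trans_lt hc)
    rwa [one_smul] at this

/-- complexification of real parameters -/
noncomputable def cbR (J : Type) [Fintype J] : (J → ℝ) →L[ℝ] (J → ℂ) :=
  ContinuousLinearMap.pi fun j => Complex.ofRealCLM.comp (ContinuousLinearMap.proj j)

/-- the exponential map at a point -/
theorem exp_strict {n : ℕ} {X : Set E} (hX : CM n X) {J : Type} [Fintype J] {W : J → E → E} (hW : ∀ j, Gen X (W j))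
    {x : E} (hx : x ∈ X) :
    HasStrictFDerivAt (fun c : J → ℝ => fl X (∑ j, c j • W j) 1 x)
      (∑ j, (ContinuousLinearMap.proj j : (J → ℝ) →L[ℝ] ℝ).smulRight (W j x)) 0 := by
  obtain ⟨r, hr, Φ, h1, h2, h3⟩ := exp_hol hX hW hx
  have e1 : HasStrictFDerivAt (fun c : J → ℝ => (cbR J c, x)) ((cbR J).prod (0 : (J → ℝ) →L[ℝ] E)) 0 :=
    (cbR J).hasStrictFDerivAt.prodMk (hasStrictFDerivAt_const _ _)
  have e2 : HasStrictFDerivAt Φ ((fderiv ℂ Φ (0, x)).restrictScalars ℝ) (cbR J 0, x) := by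
    rw [map_zero]
    exact (h1 _ (mem_ball_self hr)).hasStrictFDerivAt.restrictScalars ℝ
  have e3 := e2.comp 0 e1
  have e4 : ((fderiv ℂ Φ (0, x)).restrictScalars ℝ).comp ((cbR J).prod (0 : (J → ℝ) →L[ℝ] E)) =
      ∑ j, (ContinuousLinearMap.proj j : (J → ℝ) →L[ℝ] ℝ).smulRight (W j x) := by
    refine ContinuousLinearMap.ext fun c => ?_
    have := h2 (cbR J c)
    simp only [ContinuousLinearMap.comp_apply, ContinuousLinearMap.prod_apply, _root_.zero_apply,
      ContinuousLinearMap.coe_restrictScalars', this, _root_.sum_apply,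
      ContinuousLinearMap.smulRight_apply, ContinuousLinearMap.proj_apply]
    exact Finset.sum_congr rfl fun j _ => (fl_rsmul _ _).symm
  rw [e4] at e3
  refine e3.congr_of_eventuallyEq ?_
  filter_upwards [ball_mem_nhds (0 : J → ℝ) hr] with c hc
  exact (h3 c (mem_ball_zero_iff.1 hc) x ⟨hx, mem_ball_self hr⟩).symm

/-- joint continuity of the exponential map -/
theorem exp_cont {n : ℕ} {X : Set E} (hX : CM n X) {J : Type} [Fintype J] {W : J → E → E} (hW : ∀ j, Gen X (W j)) :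
    ContinuousOn (fun p : (J → ℝ) × E => fl X (∑ j, p.1 j • W j) 1 p.2) (univ ×ˢ X) := by
  rintro ⟨c₀, y₀⟩ ⟨-, hy₀⟩
  have hG := fun c => Gen.sum hX hW c
  let T : ℝ → Prop := fun t =>
    ContinuousWithinAt (fun p : (J → ℝ) × E => fl X (∑ j, p.1 j • W j) t p.2) (univ ×ˢ X) (c₀, y₀)
  have hT0 : T 0 := by
    refine continuous_snd.continuousWithinAt.congr (fun p hp => (hG _).isFlow.zero _ hp.2) ?_
    exact (hG _).isFlow.zero _ hy₀
  have step : ∀ t₀, ∀ᶠ q : ℝ × ℝ in 𝓝 (t₀, t₀), T q.1 → T q.2 := by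
    intro t₀
    have hc : Continuous fun t => fl X (∑ j, c₀ j • W j) t y₀ :=
      continuous_iff_continuousAt.2 fun t => ((hG c₀).isFlow.hasDerivAt hy₀ t).continuousAt
    obtain ⟨r, hr, Φ, h1, -, h3⟩ := exp_hol hX hW ((hG c₀).isFlow.maps t₀ hy₀)
    have e1 : ∀ᶠ q : ℝ × ℝ in 𝓝 (t₀, t₀), fl X (∑ j, c₀ j • W j) q.1 y₀ ∈ ball (fl X (∑ j, c₀ j • W j) t₀ y₀) r :=
      (hc.comp continuous_fst).continuousAt.eventually (ball_mem_nhds _ hr)
    have e2 : ∀ᶠ q : ℝ × ℝ in 𝓝 (t₀, t₀), ‖(q.2 - q.1) • c₀‖ < r := by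
      have : ContinuousAt (fun q : ℝ × ℝ => ‖(q.2 - q.1) • c₀‖) (t₀, t₀) := by fun_prop
      exact this.eventually_lt continuousAt_const (by simpa using hr)
    filter_upwards [e1, e2] with ⟨t, t'⟩ hq1 hq2 hT
    simp only at hq1 hq2 hT ⊢
    have key : ∀ (c : J → ℝ), ∀ y ∈ X, ‖(t' - t) • c‖ < r →
        fl X (∑ j, c j • W j) t y ∈ ball (fl X (∑ j, c₀ j • W j) t₀ y₀) r →
        fl X (∑ j, c j • W j) t' y = Φ (cbR J ((t' - t) • c), fl X (∑ j, c j • W j) t y) := by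
      intro c y hy g1 g2
      have hz := (hG c).isFlow.maps t hy
      have g3 := h3 _ g1 _ ⟨hz, g2⟩
      have g4 : ∑ j, ((t' - t) • c) j • W j = (t' - t) • ∑ j, c j • W j := by
        rw [Finset.smul_sum]
        exact Finset.sum_congr rfl fun j _ => by rw [Pi.smul_apply, smul_eq_mul, mul_smul]
      rw [g4, ((hG c).rsmul _).2 1 _ hz, one_mul, ← (hG c).isFlow.add _ _ _ hy, sub_add_cancel] at g3
      exact g3
    have hΦ : ContinuousAt Φ (cbR J ((t' - t) • c₀), fl X (∑ j, c₀ j • W j) t y₀) := by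
      refine (h1 _ ?_).continuousAt
      rw [← ball_prod_same]
      refine ⟨?_, hq1⟩
      rw [mem_ball_zero_iff, pi_norm_lt_iff hr]
      intro j
      exact (Complex.norm_real _).trans_lt ((norm_le_pi_norm _ j).trans_lt hq2)
    have hin : ContinuousWithinAt (fun p : (J → ℝ) × E => (cbR J ((t' - t) • p.1), fl X (∑ j, p.1 j • W j) t p.2))
        (univ ×ˢ X) (c₀, y₀) := ContinuousWithinAt.prodMk (Continuous.continuousWithinAt (by fun_prop)) hT
    refine (hΦ.comp_continuousWithinAt_of_eq hin rfl).congr_of_eventuallyEq ?_ (key c₀ y₀ hy₀ hq2 hq1)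
    have e3 : ∀ᶠ p : (J → ℝ) × E in 𝓝 (c₀, y₀), ‖(t' - t) • p.1‖ < r := by
      have : ContinuousAt (fun p : (J → ℝ) × E => ‖(t' - t) • p.1‖) (c₀, y₀) := by fun_prop
      exact this.eventually_lt continuousAt_const hq2
    filter_upwards [self_mem_nhdsWithin, nhdsWithin_le_nhds e3, hT.eventually (isOpen_ball.mem_nhds hq1)]
      with p hp g1 g2
    exact key p.1 p.2 hp.2 g1 g2
  refine PreconnectedSpace.induction₂' (fun s t : ℝ => T s → T t) (fun t₀ => ?_) ?_ 0 1 hT0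
  · have e1 : Tendsto (fun t : ℝ => (t₀, t)) (𝓝 t₀) (𝓝 (t₀, t₀)) := (Continuous.prodMk_right t₀).tendsto t₀
    have e2 : Tendsto (fun t : ℝ => (t, t₀)) (𝓝 t₀) (𝓝 (t₀, t₀)) := (Continuous.prodMk_left t₀).tendsto t₀
    exact (e1.eventually (step t₀)).and (e2.eventually (step t₀))
  · exact ⟨fun _ _ _ h h' h'' => h' (h h'')⟩

/-- local transitivity: `HasStrictFDerivAt.map_nhds_eq_of_surj` in a chart -/
theorem exp_open {n : ℕ} {X : Set E} (hX : CM n X) {S : Submodule ℝ (E → E)} (hS : ∀ W ∈ S, Gen X W) {x : E}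
    (hx : x ∈ X) (h : ∀ v ∈ Tan X x, ∃ W ∈ S, W x = v) : ∀ᶠ y in 𝓝[X] x, ∃ W ∈ S, fl X W 1 x = y := by
  obtain ⟨k, Ψ, O, U, c, hU⟩ := hX.mfd x hx
  obtain ⟨hO, hk⟩ := c.hW x ⟨hx, hU⟩
  obtain ⟨t1, t2⟩ := c.tan hO
  rw [hk] at t1 t2
  let b := Module.finBasis ℝ (Fin n → ℂ)
  choose W hWS hWx using fun j => h (fderiv ℂ k (Ψ x) (b j)) (by rw [t1]; exact ⟨_, rfl⟩)
  have hW := fun j => hS _ (hWS j)
  have e1 := exp_strict hX hW hx
  have e0 : fl X (∑ j, (0 : Fin (Module.finrank ℝ (Fin n → ℂ)) → ℝ) j • W j) 1 x = x := (Gen.sum hX hW 0).fl_fix hx (by simp) 1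
  have e2 : HasStrictFDerivAt Ψ ((fderiv ℂ Ψ x).restrictScalars ℝ) (fl X (∑ j, (0 : Fin (Module.finrank ℝ (Fin n → ℂ)) → ℝ) j • W j) 1 x) := by
    rw [e0]
    exact (c.aΨ x hU).hasStrictFDerivAt.restrictScalars ℝ
  have e3 := (e2.comp 0 e1).map_nhds_eq_of_surj (by
    refine LinearMap.range_eq_top.2 fun u => ⟨fun j => b.repr u j, ?_⟩
    conv_rhs => rw [← b.sum_repr u]
    simp only [ContinuousLinearMap.coe_coe, ContinuousLinearMap.comp_apply, _root_.sum_apply,
      ContinuousLinearMap.smulRight_apply, ContinuousLinearMap.proj_apply, map_sum, map_smul,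
      ContinuousLinearMap.coe_restrictScalars', hWx, t2])
  rw [e0] at e3
  have e4 : ∀ᶠ a in 𝓝 (0 : Fin (Module.finrank ℝ (Fin n → ℂ)) → ℝ), fl X (∑ j, a j • W j) 1 x ∈ U :=
    e1.continuousAt.eventually (c.oW.mem_nhds (by beta_reduce; rwa [e0]))
  have e5 := image_mem_map (m := fun a : Fin (Module.finrank ℝ (Fin n → ℂ)) → ℝ => Ψ (fl X (∑ j, a j • W j) 1 x)) e4
  rw [e3] at e5
  filter_upwards [self_mem_nhdsWithin, nhdsWithin_le_nhds (c.oW.mem_nhds hU),
    nhdsWithin_le_nhds ((c.aΨ x hU).continuousAt.eventually e5)] with y hy hyU ⟨a, ha, hay⟩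
  refine ⟨∑ j, a j • W j, S.sum_mem fun j _ => S.smul_mem (a j) (hWS j), ?_⟩
  rw [← (c.hW y ⟨hy, hyU⟩).2, ← hay]
  exact (c.hW _ ⟨(Gen.sum hX hW a).isFlow.maps 1 hx, ha⟩).2.symm

theorem transitive {n : ℕ} {X : Set E} (hX : CM n X) (h : ∀ x ∈ X, ∀ v ∈ Tan X x, ∃ W, Gen X W ∧ W x = v)
    {x y : E} (hx : x ∈ X) (hy : y ∈ X) : ∃ f g : E → E, Bih X X f g ∧ f x = y := by
  let S : Submodule ℝ (E → E) :=
    { carrier := {W | Gen X W}
      add_mem' := fun h h' => Gen.add hX h h'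
      zero_mem' := gen_zero X
      smul_mem' := fun c W h => (Gen.rsmul h c).1 }
  have ho := fun z hz => exp_open hX (S := S) (fun _ h => h) hz (h z hz)
  refine clopen_ind hX.conn.isPreconnected (A := {y | ∃ f g : E → E, Bih X X f g ∧ f x = y})
    ⟨x, hx, _, _, Bih.refl X, rfl⟩ ?_ ?_ hy
  · rintro z hz ⟨f, g, hb, rfl⟩
    filter_upwards [ho _ hz] with w ⟨W, hW, hw⟩
    exact ⟨_, _, hb.trans ((Gen.isFlow hW).toIsGrp.bih 1), hw⟩
  · intro z hz hf
    obtain ⟨w, ⟨f, g, hb, hw⟩, W, hW, hw'⟩ := (hf.and_eventually (ho z hz)).exists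
    have hb' := (Gen.isFlow hW).toIsGrp.bih 1
    refine ⟨_, _, hb.trans hb'.symm, ?_⟩
    rw [hw, ← hw', hb'.gf z hz]

theorem Sym.coc {n : ℕ} {X : Set E} (h : Sym n X) : Coc X := by
  obtain ⟨x₀, hx₀⟩ := h.cm.conn.nonempty
  refine ⟨{x₀}, isCompact_singleton, singleton_subset_iff.2 hx₀, fun x hx => ?_⟩
  exact transitive h.cm h.tr hx hx₀

end Crest.Agent.R264
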