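import Crest.Agent.R264.Lie.Br
import Crest.Agent.R264.Base.Cd
import Crest.Agent.R266.Ray

set_option autoImplicit false
set_option linter.unusedSectionVars false
open Set Filter Topology Metric Complex

namespace Crest.Agent.R264

variable {E F G : Type}
  [NormedAddCommGroup E] [NormedSpace ℂ E] [NormedSpace ℝ E] [IsScalarTower ℝ ℂ E] [FiniteDimensional ℂ E]
  [NormedAddCommGroup F] [NormedSpace ℂ F] [NormedSpace ℝ F] [IsScalarTower ℝ ℂ F] [FiniteDimensional ℂ F]
  [NormedAddCommGroup G] [NormedSpace ℂ G] [NormedSpace ℝ G] [IsScalarTower ℝ ℂ G] [FiniteDimensional ℂ G]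

/-! Flows. -/

theorem IsFlow.hasDerivAt {X : Set E} {W : E → E} {φ : ℝ → E → E} (h : IsFlow X W φ) {x : E} (hx : x ∈ X) (t : ℝ) :
    HasDerivAt (fun s => φ s x) (W (φ t x)) t := by
  have := (sub_self t ▸ h.der _ (h.maps t hx)).comp_sub_const t t
  simpa only [← h.add _ _ x hx, sub_add_cancel] using this

theorem Gen.vf {X : Set E} {W : E → E} (h : Gen X W) : VF X W := by
  obtain ⟨φ, hφ⟩ := h.flow
  refine ⟨h.an, fun x hx => ?_⟩
  simpa only [hφ.zero x hx] using tan_of_curve (hφ.der x hx) (Eventually.of_forall fun s => hφ.maps s hx)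

theorem Gen.isFlow {X : Set E} {W : E → E} (h : Gen X W) : IsFlow X W (fl X W) := by
  rw [fl, dif_pos h.flow]
  exact h.flow.choose_spec

/-- ambient uniqueness (`ODE_solution_unique_of_eventually`, clopen argument in `t`) -/
theorem ode_unique' {c c' : ℝ → E} {I : Set ℝ} (hI : IsOpen I) (hc : IsPreconnected I) (h : ContinuousOn c I)
    (h' : ContinuousOn c' I) (hl : ∀ t ∈ I, c t = c' t → ∃ g : E → E, AnalyticAt ℂ g (c t) ∧
      ∀ᶠ s in 𝓝 t, HasDerivAt c (g (c s)) s ∧ HasDerivAt c' (g (c' s)) s) {t₀ : ℝ} (ht₀ : t₀ ∈ I)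
    (he : c t₀ = c' t₀) : EqOn c c' I := by
  have key : ∀ t ∈ I, c t = c' t → c =ᶠ[𝓝 t] c' := fun t ht e => by
    obtain ⟨g, g1, g2⟩ := hl t ht e
    obtain ⟨K, s, s1, s2⟩ := ((g1.contDiffAt (n := 1)).restrict_scalars ℝ).exists_lipschitzOnWith
    refine ODE_solution_unique_of_eventually (v := fun _ => g) (s := fun _ => s) (Eventually.of_forall fun _ => s2)
      ((g2.mono fun _ h => h.1).and (h.continuousAt (hI.mem_nhds ht) s1))
      ((g2.mono fun _ h => h.2).and (h'.continuousAt (hI.mem_nhds ht) (e ▸ s1))) e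
  intro t ht
  refine hc.induction₂' (fun s s' => c s = c' s → c s' = c' s') (fun s hs => ?_)
    (fun _ _ _ _ _ _ a b e => b (a e)) ht₀ ht he
  by_cases e : c s = c' s
  · exact nhdsWithin_le_nhds ((key s hs e).mono fun s' e' => ⟨fun _ => e', fun _ => e⟩)
  · exact (((h s hs).prodMk (h' s hs)).eventually (isClosed_diagonal.isOpen_compl.mem_nhds e)).mono
      fun s' e' => ⟨fun a => absurd a e, fun a => absurd a e'⟩

/-- uniqueness of integral curves (a local analytic extension of `W` is Lipschitz; `ODE_solution_unique_of_eventually`,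
clopen argument in `t`) -/
theorem ode_unique {X : Set E} {W : E → E} (hW : AnalyticOn ℂ W X) {c c' : ℝ → E} {I : Set ℝ} (hI : IsOpen I)
    (hc : IsPreconnected I) (h : ∀ t ∈ I, c t ∈ X ∧ HasDerivAt c (W (c t)) t)
    (h' : ∀ t ∈ I, c' t ∈ X ∧ HasDerivAt c' (W (c' t)) t) {t₀ : ℝ} (ht₀ : t₀ ∈ I) (he : c t₀ = c' t₀) :
    EqOn c c' I := by
  refine ode_unique' hI hc (fun t ht => (h t ht).2.continuousAt.continuousWithinAt)
    (fun t ht => (h' t ht).2.continuousAt.continuousWithinAt) (fun t ht e => ?_) ht₀ he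
  obtain ⟨g, g1, g2⟩ := anOn_iff.1 hW _ (h t ht).1
  have g3 := eventually_nhdsWithin_iff.1 g2
  refine ⟨g, g1, ?_⟩
  filter_upwards [hI.mem_nhds ht, (h t ht).2.continuousAt g3, (h' t ht).2.continuousAt (e ▸ g3)] with s s1 s2 s3
  exact ⟨s2 (h s s1).1 ▸ (h s s1).2, s3 (h' s s1).1 ▸ (h' s s1).2⟩

theorem Gen.fl_eq {X : Set E} {W : E → E} (h : Gen X W) {c : ℝ → E} (hc : ∀ t, c t ∈ X ∧ HasDerivAt c (W (c t)) t)
    (t : ℝ) : c t = fl X W t (c 0) := by
  exact ode_unique h.an isOpen_univ isPreconnected_univ (fun t _ => hc t)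
    (fun t _ => ⟨h.isFlow.maps t (hc 0).1, h.isFlow.hasDerivAt (hc 0).1 t⟩) (mem_univ 0)
    (h.isFlow.zero _ (hc 0).1).symm (mem_univ t)

theorem Gen.fl_eq_flow {X : Set E} {W : E → E} (h : Gen X W) {φ : ℝ → E → E} (hφ : IsFlow X W φ) (t : ℝ) {x : E}
    (hx : x ∈ X) : φ t x = fl X W t x := by
  simpa only [hφ.zero x hx] using h.fl_eq (fun t => ⟨hφ.maps t hx, hφ.hasDerivAt hx t⟩) t

theorem Gen.fl_fix {X : Set E} {W : E → E} (h : Gen X W) {x : E} (hx : x ∈ X) (h0 : W x = 0) (t : ℝ) :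
    fl X W t x = x := by
  exact (h.fl_eq (c := fun _ => x) (fun t => ⟨hx, h0 ▸ hasDerivAt_const t x⟩) t).symm

/-- a field all of whose integral curves are global and depend holomorphically on the initial point is complete -/
theorem gen_of_curves {X : Set E} {W : E → E} (hW : AnalyticOn ℂ W X) (h0 : ∀ x, x ∉ X → W x = 0) {φ : ℝ → E → E}
    (ha : ∀ t, AnalyticOn ℂ (φ t) X ∧ MapsTo (φ t) X X) (hz : ∀ x ∈ X, φ 0 x = x)
    (hd : ∀ x ∈ X, ∀ t, HasDerivAt (fun s => φ s x) (W (φ t x)) t) : Gen X W ∧ IsFlow X W φ := by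
  have h : IsFlow X W φ := ⟨⟨fun t => (ha t).1, fun t => (ha t).2, hz, fun s t x hx =>
    ode_unique hW isOpen_univ isPreconnected_univ (c := fun s => φ (s + t) x) (c' := fun s => φ s (φ t x))
      (fun s _ => ⟨(ha _).2 hx, (hd x hx (s + t)).comp_add_const s t⟩)
      (fun s _ => ⟨(ha _).2 ((ha _).2 hx), hd _ ((ha _).2 hx) s⟩) (mem_univ 0)
      (by rw [zero_add, hz _ ((ha _).2 hx)]) (mem_univ s)⟩, fun x hx => by simpa only [hz x hx] using hd x hx 0⟩
  exact ⟨⟨hW, h0, φ, h⟩, h⟩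

theorem gen_zero (X : Set E) : Gen X 0 := by
  exact (gen_of_curves (φ := fun _ x => x) analyticOn_const (fun _ _ => rfl)
    (fun _ => ⟨analyticOn_id, mapsTo_id X⟩) (fun _ _ => rfl) fun x _ t => hasDerivAt_const t x).1

theorem Gen.rsmul {X : Set E} {W : E → E} (h : Gen X W) (c : ℝ) :
    Gen X (c • W) ∧ ∀ t, ∀ x ∈ X, fl X (c • W) t x = fl X W (t * c) x := by
  have hf := h.isFlow
  obtain ⟨h1, h2⟩ := gen_of_curves (h.vf.rsmul c).an (fun x hx => by simp [h.off x hx])
    (φ := fun t => fl X W (t * c)) (fun t => ⟨hf.an _, hf.maps _⟩) (fun x hx => by simpa using hf.zero x hx)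
    fun x hx t => by
      have := (hf.hasDerivAt hx (t * c)).scomp t (hasDerivAt_mul_const c)
      exact this
  exact ⟨h1, fun t x hx => (h1.fl_eq_flow h2 t hx).symm⟩

theorem Gen.pushf {n : ℕ} {X : Set E} {Y : Set F} (hX : Mfd n X) {f : E → F} {g : F → E} (h : Bih X Y f g)
    {W : E → E} (hW : Gen X W) :
    Gen Y (push X Y f g W) ∧ ∀ t, ∀ y ∈ Y, fl Y (push X Y f g W) t y = f (fl X W t (g y)) := by
  have hf := hW.isFlow
  obtain ⟨h1, h2⟩ := gen_of_curves (hW.vf.pushf hX h).an (fun y hy => indicator_of_notMem hy _)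
    (φ := fun t y => f (fl X W t (g y)))
    (fun t => ⟨h.af.comp ((hf.an t).comp h.ag h.mg) ((hf.maps t).comp h.mg), (h.mf.comp (hf.maps t)).comp h.mg⟩)
    (fun y hy => by simp only [hf.zero _ (h.mg hy), h.fg y hy]) fun y hy t => by
      have m := fun s => hf.maps s (h.mg hy)
      rw [push_apply h W (m t)]
      exact hasDerivAt_comp_curve (hf.hasDerivAt (h.mg hy) t) (Eventually.of_forall m) (h.af.differentiableOn _ (m t))
  exact ⟨h1, fun t y hy => (h1.fl_eq_flow h2 t hy).symm⟩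

/-- joint continuity (uniform local Lipschitz bounds `unif_lip`, `X` bounded) -/
theorem IsGrp.continuousOn {n : ℕ} {X : Set E} (hX : CM n X) {φ : ℝ → E → E} (h : IsGrp X φ)
    (hc : ∀ x ∈ X, Continuous fun t => φ t x) : ContinuousOn (fun p : ℝ × E => φ p.1 p.2) (univ ×ˢ X) := by
  rintro ⟨t, x⟩ ⟨-, hx⟩
  obtain ⟨R, hR⟩ := hX.bdd.exists_norm_le
  obtain ⟨O, o1, -, L, -, hL⟩ := unif_lip (F := E) hX.mfd hx univ_mem
  have a1 : Tendsto (fun p : ℝ × E => φ p.1 p.2 - φ p.1 x) (𝓝[univ ×ˢ X] (t, x)) (𝓝 0) := by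
    refine squeeze_zero_norm' (a := fun p => L * R * ‖p.2 - x‖) ?_ (Tendsto.mono_left ?_ nhdsWithin_le_nhds)
    · filter_upwards [self_mem_nhdsWithin, nhdsWithin_le_nhds (continuousAt_snd (p := (t, x)) o1)] with p p1 p2
      exact (hL (φ p.1) R ((h.an _).mono inter_subset_left) fun y hy => hR _ (h.maps _ hy.1)).1 _ ⟨p1.2, p2⟩ _
        ⟨hx, mem_of_mem_nhds o1⟩
    · exact Continuous.tendsto' (by fun_prop) _ _ (by simp)
  simpa [ContinuousWithinAt] using a1.add (((hc x hx).comp continuous_fst).continuousWithinAt (s := univ ×ˢ X) (x := (t, x)))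

theorem fl_rsmul (t : ℝ) (a : F) : t • a = (t : ℂ) • a := by
  rw [← one_smul ℂ a, ← smul_assoc, Complex.real_smul, mul_one, one_smul]

theorem fl_ray {Φ : F × E → G} {a : F} {y : E} {t : ℝ} (h : DifferentiableAt ℂ Φ (t • a, y)) :
    HasDerivAt (fun s : ℝ => Φ (s • a, y)) (fderiv ℂ Φ (t • a, y) (a, 0)) t := by
  have h1 : HasDerivAt (fun s : ℝ => (s • a, y)) (a, 0) t := by
    simpa using ((hasDerivAt_id t).smul_const a).prodMk (hasDerivAt_const t y)
  exact (h.hasFDerivAt.restrictScalars ℝ).comp_hasDerivAt t h1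

/-- Holomorphic flows with parameters: `R266.exists_ray` on `F × E` with `S (c, y) (a, b) = (0, G y a)`,
`Φ (a, y) = (Y ((a, 0), (0, y))).2`.  The Euler identity at `(t • a, y)` gives the derivative for `t ≠ 0`;
`t = 0` by continuity of `t ↦ fderiv Φ (t • a, y) (a, 0)`. -/
theorem hol_exp {A : E → F →L[ℂ] E} {x : E} (hA : AnalyticAt ℂ A x) {N : Set E} (hN : N ∈ 𝓝 x) :
    ∃ r > 0, ∃ Φ : F × E → E, AnalyticOnNhd ℂ Φ (ball (0, x) r) ∧ MapsTo Φ (ball (0, x) r) N ∧
      (∀ y ∈ ball x r, Φ (0, y) = y) ∧ ∀ (a : F) (y : E) (t : ℝ), (t • a, y) ∈ ball ((0 : F), x) r →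
        HasDerivAt (fun s : ℝ => Φ (s • a, y)) (A (Φ (t • a, y)) a) t := by
  let S : F × E → (F × E) →L[ℂ] F × E := fun p => (ContinuousLinearMap.inr ℂ F E).comp ((A p.2).comp (.fst ℂ F E))
  have hS : AnalyticAt ℂ S (0, x) := by
    let B : (F →L[ℂ] E) →L[ℂ] (F × E) →L[ℂ] F × E := (ContinuousLinearMap.compL ℂ (F × E) E (F × E) (.inr ℂ F E)).comp
      ((ContinuousLinearMap.compL ℂ (F × E) F E).flip (.fst ℂ F E))
    exact (B.analyticAt _).comp (hA.comp_of_eq analyticAt_snd rfl)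
  obtain ⟨r, r0, Y, y1, y2, y3, y4⟩ := R266.exists_ray hS (N := Prod.snd ⁻¹' (N ∩ {z | AnalyticAt ℂ A z}))
    (continuousAt_snd (inter_mem hN hA.eventually_analyticAt))
  let j : F × E →L[ℂ] (F × E) × F × E := ((ContinuousLinearMap.inl ℂ F E).comp (.fst ℂ F E)).prod
    ((ContinuousLinearMap.inr ℂ F E).comp (.snd ℂ F E))
  have hj : ∀ p ∈ ball ((0 : F), x) r, j p ∈ ball ((0 : F × E), ((0 : F), x)) r := fun p hp => by
    simp only [mem_ball, Prod.dist_eq, max_lt_iff] at hp ⊢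
    simpa [j, r0, Prod.norm_def] using hp
  have an : AnalyticOnNhd ℂ (fun p => (Y (j p)).2) (ball (0, x) r) := fun p hp =>
    analyticAt_snd.comp ((R266.osgood isOpen_ball y1 _ (hj p hp)).comp (j.analyticAt p))
  have eu : ∀ p ∈ ball ((0 : F), x) r, fderiv ℂ (fun p => (Y (j p)).2) p (p.1, 0) = A (Y (j p)).2 p.1 := fun p hp => by
    have := ((y1.differentiableAt (isOpen_ball.mem_nhds (hj p hp))).hasFDerivAt.comp p j.hasFDerivAt).snd.fderiv
    have e := congrArg Prod.snd (y4 _ (hj p hp))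
    exact (DFunLike.congr_fun this _).trans e
  refine ⟨r, r0, fun p => (Y (j p)).2, an, fun p hp => (y2 (hj p hp)).1, fun y hy => ?_, fun a y t ht => ?_⟩
  · exact congrArg Prod.snd (y3 (0, y) (by simpa [Prod.dist_eq, r0] using hy))
  have c : Continuous fun s : ℝ => (s • a, y) := by fun_prop
  have e1 : ∀ s : ℝ, s ≠ 0 → (s • a, y) ∈ ball ((0 : F), x) r →
      fderiv ℂ (fun p => (Y (j p)).2) (s • a, y) (a, 0) = A (Y (j (s • a, y))).2 a := fun s h0 hs => by
    have := eu _ hs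
    rw [show ((s • a, y).1, (0 : E)) = (s : ℂ) • (a, 0) by simp [fl_rsmul], map_smul, fl_rsmul s a, map_smul,
      ← fl_rsmul s a] at this
    exact smul_right_injective _ (Complex.ofReal_ne_zero.2 h0) this
  convert fl_ray (an _ ht).differentiableAt using 1
  rcases eq_or_ne t 0 with rfl | h0
  · have c1 : ContinuousAt (fun s : ℝ => fderiv ℂ (fun p => (Y (j p)).2) (s • a, y) (a, 0)) 0 :=
      ((an _ ht).fderiv.continuousAt.comp_of_eq c.continuousAt rfl).clm_apply continuousAt_const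
    have c2 : ContinuousAt (fun s : ℝ => A (Y (j (s • a, y))).2 a) 0 :=
      ((AnalyticAt.continuousAt (y2 (hj _ ht)).2).comp_of_eq
        ((an _ ht).continuousAt.comp_of_eq c.continuousAt rfl) rfl).clm_apply continuousAt_const
    refine tendsto_nhds_unique_of_eventuallyEq (l := 𝓝[≠] 0) (c2.mono_left nhdsWithin_le_nhds)
      (c1.mono_left nhdsWithin_le_nhds) ?_
    filter_upwards [self_mem_nhdsWithin, nhdsWithin_le_nhds (c.continuousAt (isOpen_ball.mem_nhds ht))] with s h0 hs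
    exact (e1 s h0 hs).symm
  · exact (e1 t h0 ht).symm

/-- `hol_exp` computes the flows of complete fields (`ode_unique'` on the interval `{t | (t • a, y) ∈ ball}`) -/
theorem hol_fl (X : Set E) {A : E → F →L[ℂ] E} {x : E} (hA : AnalyticAt ℂ A x) {N : Set E} (hN : N ∈ 𝓝 x) :
    ∃ r > 0, ∃ Φ : F × E → E, AnalyticOnNhd ℂ Φ (ball (0, x) r) ∧ Φ (0, x) = x ∧
      (∀ a, fderiv ℂ Φ (0, x) (a, 0) = A x a) ∧ ∀ W a, Gen X W → (∀ y ∈ X ∩ N, W y = A y a) → ∀ y ∈ X, ∀ t : ℝ,
        (t • a, y) ∈ ball ((0 : F), x) r → fl X W t y = Φ (t • a, y) := by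
  obtain ⟨r, r0, Φ, h1, h2, h3, h4⟩ := hol_exp hA (N := interior (N ∩ {z | AnalyticAt ℂ A z}))
    (interior_mem_nhds.2 (inter_mem hN hA.eventually_analyticAt))
  have m0 : ∀ a : F, ((0 : ℝ) • a, x) ∈ ball ((0 : F), x) r := fun a => by simpa using r0
  have x0 := h3 x (mem_ball_self r0)
  refine ⟨r, r0, Φ, h1, x0, fun a => ?_, fun W a hW hWA y hy t ht => ?_⟩
  · simpa [x0] using (fl_ray (h1 _ (m0 a)).differentiableAt).unique (h4 a x 0 (m0 a))
  have hy' : y ∈ ball x r := by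
    simp only [mem_ball, Prod.dist_eq, max_lt_iff] at ht
    exact ht.2
  have c : Continuous fun s : ℝ => (s • a, y) := by fun_prop
  have cv : Convex ℝ {s : ℝ | (s • a, y) ∈ ball ((0 : F), x) r} := fun s hs s' hs' u v hu hv huv => by
    have := convex_ball _ _ hs hs' hu hv huv
    rwa [show u • (s • a, y) + v • (s' • a, y) = ((u • s + v • s') • a, y) by
      rw [Prod.smul_mk, Prod.smul_mk, Prod.mk_add_mk, ← add_smul u v y, huv, one_smul, add_smul, smul_assoc,
        smul_assoc]] at this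
  have hf := hW.isFlow
  refine ode_unique' (c := fun s => fl X W s y) (c' := fun s => Φ (s • a, y)) (isOpen_ball.preimage c)
    cv.isPreconnected (fun s _ => (hf.hasDerivAt hy s).continuousAt.continuousWithinAt)
    (fun s hs => (h4 a y s hs).continuousAt.continuousWithinAt) (fun s hs e => ?_) (t₀ := 0)
    (by simpa [Prod.dist_eq, r0] using hy') (by simp [hf.zero y hy, h3 y hy']) ht
  have m := h2 hs
  rw [← e] at m
  refine ⟨fun z => A z a, ((ContinuousLinearMap.apply ℂ E a).analyticAt _).comp (interior_subset m).2, ?_⟩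
  filter_upwards [(hf.hasDerivAt hy s).continuousAt (isOpen_interior.mem_nhds m),
    (isOpen_ball.preimage c).mem_nhds hs] with s' b1 b2
  exact ⟨hWA _ ⟨hf.maps s' hy, (interior_subset b1).1⟩ ▸ hf.hasDerivAt hy s', h4 a y s' b2⟩

/-- Joint analyticity.  In a chart the holomorphic field has a local flow `Φ(ζ, u)` analytic in complex time (Picard
iteration in the space of bounded holomorphic maps, or `R266` ODE lemmas); by `ode_unique` it equals `fl` for real
times; `fl t = fl (t - t₀) ∘ fl t₀`. -/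
theorem Gen.fl_analytic {n : ℕ} {X : Set E} (hX : Mfd n X) {W : E → E} (h : Gen X W) (t : ℝ) {x : E} (hx : x ∈ X) :
    ∃ Φ : ℂ × E → E, AnalyticAt ℂ Φ ((t : ℂ), x) ∧
      ∀ᶠ p : ℝ × E in 𝓝 (t, x), p.2 ∈ X → fl X W p.1 p.2 = Φ ((p.1 : ℂ), p.2) := by
  have hf := h.isFlow
  obtain ⟨g, g1, g2⟩ := anOn_iff.1 h.an _ (hf.maps t hx)
  obtain ⟨k, k1, k2⟩ := anOn_iff.1 (hf.an t) _ hx
  have k3 := k2.eq_of_nhdsWithin hx
  obtain ⟨r, r0, Φ, h1, -, -, h2⟩ := hol_fl X (A := fun z => ContinuousLinearMap.toSpanSingleton ℂ (g z))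
    (((ContinuousLinearMap.toSpanSingletonCLE (𝕜 := ℂ) (E := E)).analyticAt _).comp g1)
    (eventually_nhdsWithin_iff.1 g2)
  have an : AnalyticAt ℂ (fun p : ℂ × E => (p.1 - t, k p.2)) (t, x) :=
    (analyticAt_fst.sub analyticAt_const).prod (k1.comp_of_eq analyticAt_snd rfl)
  refine ⟨fun p => Φ (p.1 - t, k p.2), (h1 _ (mem_ball_self r0)).comp_of_eq an (by simp [k3]), ?_⟩
  have c : ContinuousAt (fun p : ℝ × E => ((p.1 : ℂ), p.2)) (t, x) := by fun_prop
  filter_upwards [(an.continuousAt.comp_of_eq c rfl) (ball_mem_nhds _ r0),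
    continuousAt_snd (eventually_nhdsWithin_iff.1 k2)] with p p1 p2 hp
  have e : ((p.1 - t) • (1 : ℂ), fl X W t p.2) = ((p.1 : ℂ) - t, k p.2) := by simp [p2 hp]
  rw [← e, ← h2 W 1 h (fun y hy => by simpa using hy.2 hy.1) _ (hf.maps t hp) _ (by rw [e]; simpa [k3] using p1),
    ← hf.add _ _ _ hp, sub_add_cancel]

theorem fl_time {Φ : ℂ × E → G} {y : E} {t : ℝ} (h : DifferentiableAt ℂ Φ (t, y)) :
    HasDerivAt (fun s : ℝ => Φ (s, y)) (fderiv ℂ Φ (t, y) (1, 0)) t := by
  simpa using fl_ray (Φ := Φ) (a := 1) (y := y) (t := t) (by simpa using h)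

theorem fl_space {Φ : ℂ × E → G} {y : E} {t : ℂ} (h : DifferentiableAt ℂ Φ (t, y)) :
    DifferentiableAt ℂ (fun z => Φ (t, z)) y ∧ ∀ v, fderiv ℂ (fun z => Φ (t, z)) y v = fderiv ℂ Φ (t, y) (0, v) :=
  have := h.hasFDerivAt.comp y (hasFDerivAt_prodMk_right t y)
  ⟨this.differentiableAt, fun _ => DFunLike.congr_fun this.fderiv _⟩

theorem Gen.fl_jet {n : ℕ} {X : Set E} (hX : Mfd n X) {W : E → E} (h : Gen X W) (t : ℝ) {x : E} (hx : x ∈ X) :
    ∃ Φ : ℂ × E → E, AnalyticAt ℂ Φ ((t : ℂ), x) ∧ ∀ᶠ p : ℝ × E in 𝓝 (t, x), p.2 ∈ X →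
      W (fl X W p.1 p.2) = fderiv ℂ Φ (p.1, p.2) (1, 0) ∧
      ∀ v ∈ Tan X p.2, Dv X (fl X W p.1) p.2 v = fderiv ℂ Φ (p.1, p.2) (0, v) := by
  obtain ⟨Φ, h1, h2⟩ := h.fl_analytic hX t hx
  have c : ContinuousAt (fun p : ℝ × E => ((p.1 : ℂ), p.2)) (t, x) := by fun_prop
  refine ⟨Φ, h1, ?_⟩
  filter_upwards [h2.eventually_nhds, c.eventually h1.eventually_analyticAt] with p p1 p2 hp
  refine ⟨(h.isFlow.hasDerivAt hp p.1).unique ((fl_time p2.differentiableAt).congr_of_eventuallyEq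
    (((Continuous.prodMk_left p.2).tendsto p.1).eventually p1 |>.mono fun s hs => hs hp)), fun v hv => ?_⟩
  rw [← (fl_space p2.differentiableAt).2]
  exact Dv_eq_fderiv hp (fl_space p2.differentiableAt).1
    (eventually_nhdsWithin_iff.2 (((Continuous.prodMk_right p.1).tendsto p.2).eventually p1)) hv

/-- the variational equation -/
theorem Gen.Dv_fl {n : ℕ} {X : Set E} (hX : Mfd n X) {W : E → E} (h : Gen X W) {x v : E} (hx : x ∈ X)
    (hv : v ∈ Tan X x) (t : ℝ) :
    HasDerivAt (fun s => Dv X (fl X W s) x v) (Dv X W (fl X W t x) (Dv X (fl X W t) x v)) t := by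
  obtain ⟨Φ, h1, h2⟩ := h.fl_jet hX t hx
  have hf := h.isFlow
  have d : ∀ u, DifferentiableAt ℂ (fun p => fderiv ℂ Φ p u) (t, x) ∧
      ∀ w, fderiv ℂ (fun p => fderiv ℂ Φ p u) (t, x) w = fderiv ℂ (fderiv ℂ Φ) (t, x) w u := fun u =>
    ⟨h1.fderiv.differentiableAt.clm_apply (differentiableAt_const u), fun w => by
      rw [fderiv_clm_apply h1.fderiv.differentiableAt (differentiableAt_const u)]; simp⟩
  convert (fl_time (d (0, v)).1).congr_of_eventuallyEq
    (((Continuous.prodMk_left x).tendsto t).eventually h2 |>.mono fun s hs => (hs hx).2 v hv) using 1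
  rw [← Dv_comp ((hf.an t).differentiableOn x hx) (h.an.differentiableOn _ (hf.maps t hx))
    (eventually_mem_nhdsWithin.mono (hf.maps t)) hv, Dv_eq_fderiv hx (fl_space (d (1, 0)).1).1
    (eventually_nhdsWithin_iff.2 (((Continuous.prodMk_right t).tendsto x).eventually h2 |>.mono
      fun y hy hy' => (hy hy').1)) hv, (fl_space (d (1, 0)).1).2, (d _).2, (d _).2]
  exact (h1.contDiffAt (n := ⊤)).isSymmSndFDerivAt le_top _ _

theorem Gen.Dv_fl_self {n : ℕ} {X : Set E} (hX : Mfd n X) {W : E → E} (h : Gen X W) {x : E} (hx : x ∈ X) (t : ℝ) :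
    Dv X (fl X W t) x (W x) = W (fl X W t x) := by
  have hf := h.isFlow
  have a := hasDerivAt_comp_curve (f := fl X W t) (hf.der x hx) (Eventually.of_forall fun s => hf.maps s hx)
    ((hf.an t).differentiableOn _ (hf.maps 0 hx))
  have b := hf.der _ (hf.maps t hx)
  simp only [hf.zero x hx, ← hf.add _ _ x hx, add_comm t] at a b
  exact a.unique b

theorem Gen.Dv_fl_zero {X : Set E} {W : E → E} (h : Gen X W) {x v : E} (hx : x ∈ X) (hv : v ∈ Tan X x) :
    Dv X (fl X W 0) x v = v := by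
  rw [Dv_congr hx (eventually_mem_nhdsWithin.mono h.isFlow.zero), Dv_id hv]

theorem Gen.push_zero {X : Set E} {V : E → E} (h : Gen X V) {W : E → E} (hW : VF X W) {y : E} (hy : y ∈ X) :
    push X X (fl X V 0) (fl X V (-0)) W y = W y := by
  rw [push, indicator_of_mem hy, neg_zero, h.isFlow.zero y hy, h.Dv_fl_zero hy (hW.tan y hy)]

theorem Gen.push_push {X : Set E} {V : E → E} (h : Gen X V) {W : E → E} (hW : VF X W) (s t : ℝ) :
    push X X (fl X V s) (fl X V (-s)) (push X X (fl X V t) (fl X V (-t)) W) =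
      push X X (fl X V (s + t)) (fl X V (-(s + t))) W := by
  have hf := h.isFlow
  rw [push_trans (hf.toIsGrp.bih t) (hf.toIsGrp.bih s) hW]
  refine indicator_congr fun y hy => ?_
  simp only [← hf.add _ _ y hy, neg_add_rev]
  rw [Dv_congr (hf.maps _ hy) (eventually_mem_nhdsWithin.mono (hf.add s t))]

theorem Gen.br_push {n : ℕ} {X : Set E} (hX : Mfd n X) {V W : E → E} (h : Gen X V) (hW : VF X W) (t : ℝ) :
    br X V (push X X (fl X V t) (fl X V (-t)) W) = push X X (fl X V t) (fl X V (-t)) (br X V W) := by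
  have hf := h.isFlow
  rw [push_br hX (hf.toIsGrp.bih t) h.vf hW]
  congr 1
  funext y
  by_cases hy : y ∈ X
  · rw [push, indicator_of_mem hy, h.Dv_fl_self hX (hf.maps _ hy), ← hf.add _ _ _ hy, add_neg_cancel, hf.zero y hy]
  · rw [push, indicator_of_notMem hy, h.off y hy]

/-- Lie derivative -/
theorem Gen.push_fl {n : ℕ} {X : Set E} (hX : Mfd n X) {V W : E → E} (h : Gen X V) (hW : VF X W) {y : E}
    (hy : y ∈ X) (t : ℝ) : HasDerivAt (fun s => push X X (fl X V s) (fl X V (-s)) W y)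
      (-(br X V (push X X (fl X V t) (fl X V (-t)) W) y)) t := by
  have hf := h.isFlow
  suffices z : ∀ W, VF X W → HasDerivAt (fun s => push X X (fl X V s) (fl X V (-s)) W y) (-(br X V W y)) 0 by
    have := (sub_self t ▸ z _ (hW.pushf hX (hf.toIsGrp.bih t))).comp_sub_const t t
    simpa only [h.push_push hW, sub_add_cancel] using this
  intro W hW
  obtain ⟨Φ, h1, h2⟩ := h.fl_jet hX 0 hy
  obtain ⟨w, w1, w2⟩ := anOn_iff.1 hW.an y hy
  have w3 := eventually_nhdsWithin_iff.1 w2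
  have hK : DifferentiableAt ℂ (fun p : ℂ × E => fderiv ℂ Φ p (0, w p.2)) ((0 : ℝ), y) :=
    h1.fderiv.differentiableAt.clm_apply ((differentiableAt_const _).prodMk
      (w1.comp_of_eq analyticAt_snd rfl).differentiableAt)
  have g1 : HasDerivAt (fun s : ℝ => fl X V (-s) y) (-V y) 0 := by
    rw [← neg_one_smul ℝ]
    exact (neg_zero (G := ℝ) ▸ hf.der y hy).scomp (0 : ℝ) (hasDerivAt_neg (0 : ℝ))
  have y0 : fl X V (-0) y = y := by rw [neg_zero, hf.zero y hy]
  have g2 := ((y0.symm ▸ hK.hasFDerivAt :).restrictScalars ℝ).comp_hasDerivAt (0 : ℝ)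
    ((hasDerivAt_id (0 : ℝ)).ofReal_comp.prodMk g1)
  have g3 : Tendsto (fun s : ℝ => fl X V (-s) y) (𝓝 0) (𝓝 y) := by
    simpa only [ContinuousAt, y0] using g1.continuousAt
  convert g2.congr_of_eventuallyEq ?_ using 1
  · have e1 := (h.Dv_fl hX hy (hW.tan y hy) 0).unique ((fl_time hK).congr_of_eventuallyEq
      (((Continuous.prodMk_left y).tendsto 0).eventually h2 |>.mono fun s hs => by
        simp only [← w2.eq_of_nhdsWithin hy]; exact (hs hy).2 _ (hW.tan y hy)))
    have e2 := Dv_eq_fderiv (f := W) hy (fl_space hK).1 (eventually_nhdsWithin_iff.2 (by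
      filter_upwards [((Continuous.prodMk_right 0).tendsto y).eventually h2, w3] with z z1 z2 hz
      rw [← z2 hz, ← (z1 hz).2 _ (hW.tan z hz), h.Dv_fl_zero hz (hW.tan z hz)])) (h.vf.tan y hy)
    rw [hf.zero y hy, h.Dv_fl_zero hy (hW.tan y hy)] at e1
    rw [br_apply _ _ hy, e1, e2, (fl_space hK).2, neg_sub, ← map_sub, y0]
    simp
  · filter_upwards [(tendsto_id.prodMk_nhds g3).eventually h2, g3.eventually w3] with s s1 s2
    have m := hf.maps (-s) hy
    rw [push, indicator_of_mem hy]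
    exact ((s1 m).2 _ (hW.tan _ m)).trans (by rw [s2 m]; rfl)

/-- `f` is invariant under the flow iff it is killed by the field -/
theorem Gen.inv_iff {X : Set E} {W : E → E} (h : Gen X W) {f : E → F} (hf : AnalyticOn ℂ f X) :
    (∀ t, ∀ x ∈ X, f (fl X W t x) = f x) ↔ ∀ x ∈ X, der X W f x = 0 := by
  have hg := h.isFlow
  have a := fun x hx t => hasDerivAt_comp_curve (f := f) (hg.hasDerivAt (x := x) hx t)
    (Eventually.of_forall fun s => hg.maps s hx) (hf.differentiableOn _ (hg.maps t hx))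
  refine ⟨fun H x hx => ?_, fun H t x hx => ?_⟩
  · have b := a x hx 0
    simp only [H _ x hx, hg.zero x hx] at b
    exact b.unique (hasDerivAt_const _ _)
  · simpa only [hg.zero x hx] using is_const_of_deriv_eq_zero (fun s => (a x hx s).differentiableAt)
      (fun s => (a x hx s).deriv.trans (H _ (hg.maps s hx))) t 0

/-- eigenfields of `ad V` -/
theorem Gen.push_fl_eig {n : ℕ} {X : Set E} (hX : Mfd n X) {V W : E → E} (h : Gen X V) (hW : VF X W) {c : ℂ}
    (he : ∀ y ∈ X, br X V W y = c • W y) (t : ℝ) {y : E} (hy : y ∈ X) :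
    Dv X (fl X V t) y (W y) = Complex.exp (-(c * t)) • W (fl X V t y) := by
  have hf := h.isFlow
  have m := hf.maps t hy
  rw [← push_apply (hf.toIsGrp.bih t) W hy]
  generalize fl X V t y = z at m
  have d : ∀ s : ℝ, HasDerivAt (fun s : ℝ => Complex.exp (c * s) • push X X (fl X V s) (fl X V (-s)) W z) 0 s := fun s => by
    refine (((hasDerivAt_id' s).ofReal_comp.const_mul c).cexp.fun_smul (h.push_fl hX hW m s)).congr_deriv ?_
    rw [h.br_push hX hW, push, indicator_of_mem m, he _ (hf.maps _ m), map_smul, push, indicator_of_mem m]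
    simp [smul_smul]
  have e := is_const_of_deriv_eq_zero (fun s => (d s).differentiableAt) (fun s => (d s).deriv) t 0
  rw [h.push_zero hW m] at e
  simp only [ofReal_zero, mul_zero, Complex.exp_zero, one_smul] at e
  rw [← e, smul_smul, ← Complex.exp_add, neg_add_cancel, Complex.exp_zero, one_smul]

end Crest.Agent.R264
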