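import Crest.Agent.R264.Lie.Cartan
import Crest.Agent.R264.Kos.Main

set_option autoImplicit false
set_option linter.unusedSectionVars false
open Set Filter Topology Metric Complex

namespace Crest.Agent.R264

variable {E F G : Type}
  [NormedAddCommGroup E] [NormedSpace ℂ E] [NormedSpace ℝ E] [IsScalarTower ℝ ℂ E] [FiniteDimensional ℂ E]
  [NormedAddCommGroup F] [NormedSpace ℂ F] [NormedSpace ℝ F] [IsScalarTower ℝ ℂ F] [FiniteDimensional ℂ F]
  [NormedAddCommGroup G] [NormedSpace ℂ G] [NormedSpace ℝ G] [IsScalarTower ℝ ℂ G] [FiniteDimensional ℂ G]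

/-! The Koszul form. -/

/-- Lemma K.  Fix a basis `ξ i` of `Ξ` (`k` elements).  Among holomorphic `f : X → ℂ^k` with all `‖f i‖ ≤ 1` take one
maximising `|det (Dv f x (ξ i))|` (Montel; the maximum is positive as `X` is bounded); `|f i x| < 1`
and composing with Möbius maps shows `|det D(f ∘ g)| / Π (1 - |f i (g x)|²) ≤ |det Df|` for every holomorphic self-map `g`,
in particular `f x = 0`.  Let `M = Df|Ξ`, `a V = tr (M⁻¹ ∘ D (der V f)|Ξ)` (complex linear in the tangent field `V`),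
`b V W = tr (M⁻¹ D (der W (der V f))|Ξ) - tr (M⁻¹ D(der V f) M⁻¹ D(der W f))`.  For `V ∈ Gen`,
`F t = log |det D(f ∘ fl V t)|Ξ| - Σ log (1 - |f i (fl V t x)|²)` has a maximum at `0`: `F' 0 = Re (a V) = 0`,
`F'' 0 = Re (b V V) + 2 Σ |der V (f i) x|² ≤ 0`.  Put `ψ V = Im (a V)`.  If `W x = 0` and `DW` preserves `Ξ` then
`D (der W u) = Du ∘ DW` on `Tan`, so `a W = tr (DW|Ξ)` and `b V W = 0`; `b V W - b W V = a (br W V)`.  Expanding
`b (A - iB) (A + iB) = 0` gives `b A A + b B B = -ψ (br A B)`. -/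
theorem koszul {n : ℕ} {X : Set E} (hX : CM n X) {x : E} (hx : x ∈ X) {Ξ : Submodule ℂ E} (hΞ : Ξ ≤ Tan X x) :
    ∃ ψ : (E → E) → ℝ, (∀ A B, Gen X A → Gen X B → ψ (A + B) = ψ A + ψ B) ∧
      (∀ (c : ℝ) A, Gen X A → ψ (c • A) = c * ψ A) ∧
      (∀ A B, Gen X A → Gen X B → A x + I • B x = 0 → ∀ Λ : Ξ →ₗ[ℂ] Ξ,
        (∀ v : Ξ, (Λ v : E) = Dv X A x v + I • Dv X B x v) → LinearMap.trace ℂ Ξ Λ = I * (ψ A : ℂ) - (ψ B : ℂ)) ∧
      ∀ A B, Gen X A → Gen X B → B x = I • A x → (∀ v ∈ Ξ, Dv X A x v + I • Dv X B x v ∈ Ξ) →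
        0 ≤ ψ (br X A B) ∧ (A x ∈ Ξ → A x ≠ 0 → 0 < ψ (br X A B)) := by
  exact kos_main hX hx hΞ

/-- `koszul` with `Ξ = ℂ ∙ A x` -/
theorem comm_zero {n : ℕ} {X : Set E} (hX : CM n X) {A B : E → E} (hA : Gen X A) (hB : Gen X B) {x : E} (hx : x ∈ X)
    (h : B x = I • A x) (hc : br X A B = 0) : A x = 0 := by
  by_contra h0
  obtain ⟨ψ, -, h2, -, h4⟩ := koszul hX hx (Ξ := ℂ ∙ A x) ((Submodule.span_singleton_le_iff_mem _ _).2 (hA.vf.tan x hx))
  have h5 := (h4 A B hA hB h fun v hv => by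
    obtain ⟨c, rfl⟩ := Submodule.mem_span_singleton.1 hv
    have := congrFun hc x
    rw [br_apply A B hx, h, map_smul, Pi.zero_apply, sub_eq_zero] at this
    rw [map_smul, map_smul, this, smul_comm c, smul_smul I, I_mul_I, neg_one_smul, add_neg_cancel]
    exact zero_mem _).2 (Submodule.mem_span_singleton_self _) h0
  have h6 := h2 0 A hA
  rw [zero_smul, zero_mul] at h6
  rw [hc, h6] at h5
  exact lt_irrefl _ h5

variable {L : Type} [LieRing L] [LieAlgebra ℝ L] [FiniteDimensional ℝ L] {ι : L →ₗ[ℝ] (E → E)}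

theorem LieRep.jalg {n : ℕ} {X : Set E} (hX : CM n X) (h : LieRep X ι) {x : E} (hx : x ∈ X)
    (hc : ∀ a, ∃ a', ι a' x = I • ι a x) : JAlg (evx ι x) := by
  have e : ∀ a, evx ι x a = ι a x := fun _ => rfl
  have hb : ∀ a b, ι ⁅a, b⁆ x = Dv X (ι b) x (ι a x) - Dv X (ι a) x (ι b x) := fun a b => by rw [h.lie, br_apply _ _ hx]
  have key : ∀ A B a, ι A x + I • ι B x = 0 →
      ι ⁅a, A⁆ x + I • ι ⁅a, B⁆ x = Dv X (ι A) x (ι a x) + I • Dv X (ι B) x (ι a x) := fun A B a h0 => by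
    rw [hb, hb, eq_neg_of_add_eq_zero_left h0, map_neg, map_smul]
    module
  refine ⟨hc, fun A B A' B' h1 h2 => ?_, fun Ξ hΞ => ?_⟩
  · simp only [e] at h1 h2
    rw [map_sub, map_add]
    simp only [e, hb, eq_neg_of_add_eq_zero_left h1, eq_neg_of_add_eq_zero_left h2, map_neg, map_smul, smul_add,
      smul_sub, smul_neg, smul_smul, I_mul_I, neg_one_smul]
    abel
  obtain ⟨ψ, h1, h2, h3, h4⟩ := koszul hX hx (Ξ := Ξ) fun v hv => by
    obtain ⟨a, rfl⟩ := hΞ v hv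
    exact (h.gen a).vf.tan x hx
  refine ⟨⟨⟨fun a => ψ (ι a), fun a b => by rw [map_add, h1 _ _ (h.gen a) (h.gen b)]⟩, fun c a =>
    (congrArg ψ (map_smul ι c a)).trans (h2 c _ (h.gen a))⟩, fun A B h0 Λ hΛ => h3 _ _ (h.gen A) (h.gen B) h0 Λ fun ⟨v, hv⟩ => ?_,
    fun A B h0 hΛ => ?_⟩
  · obtain ⟨a, rfl⟩ := hΞ v hv
    exact (hΛ a hv).trans (key A B a h0)
  · have := h4 _ _ (h.gen A) (h.gen B) h0 fun v hv => by
      obtain ⟨a, rfl⟩ := hΞ v hv
      exact key A B a (by rw [← e B, h0, smul_smul, I_mul_I, neg_one_smul, e, add_neg_cancel]) ▸ hΛ a hv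
    rwa [← h.lie] at this

theorem gp_half {n m k : ℕ} {D : Set E} {Y : Set F} {X : Set G} (hD : CM n D) (hY : CM m Y) (hX : Mfd k X)
    {W : G → G} (hW : Gen X W) (j : E × F →L[ℂ] G) (π : G →L[ℂ] E) (hj : ∀ z ∈ D, ∀ y ∈ Y, j (z, y) ∈ X)
    (hπ : MapsTo π X D) (hπj : ∀ z y, π (j (z, y)) = z) :
    ∃ W₁, Gen D W₁ ∧ ∀ z ∈ D, ∀ y ∈ Y, π (W (j (z, y))) = W₁ z := by
  let V : F → E → E := fun y => D.indicator fun z => π (W (j (z, y)))
  have hV : ∀ y ∈ Y, Gen D (V y) := fun y hy => by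
    have a1 : ∀ z, AnalyticAt ℂ (fun z => j (z, y)) z := fun z =>
      (j.analyticAt _).comp (analyticAt_id.prod analyticAt_const)
    have a2 : ∀ {u : G → G}, AnalyticOn ℂ u X → AnalyticOn ℂ (fun z => π (u (j (z, y)))) D := fun hu =>
      π.comp_analyticOn (hu.comp (fun z _ => (a1 z).analyticWithinAt) fun z hz => hj z hz y hy)
    refine trotter hD ((a2 hW.an).congr fun z hz => indicator_of_mem hz _) (fun z hz => indicator_of_notMem hz _)
      (T := fun s z => π (fl X W s (j (z, y)))) (.of_forall fun s => ⟨a2 (hW.isFlow.an s), fun z hz =>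
        hπ (hW.isFlow.maps s (hj z hz y hy))⟩) fun x hx ε ε0 => ?_
    obtain ⟨O, hO, C, hC⟩ := flow_est hX hW (hj x hx y hy)
    refine ⟨_, (a1 x).continuousAt hO, ?_⟩
    filter_upwards [hC, (by fun_prop : Continuous fun s : ℝ => ‖π‖ * C * |s|).continuousAt.eventually
      (gt_mem_nhds (a := ε) (by simpa))] with s h1 h2 z hz
    calc _ = ‖π (fl X W s (j (z, y)) - j (z, y) - s • W (j (z, y)))‖ := by
          rw [map_sub, map_sub, hπj, π.map_smul_of_tower, show V y z = _ from indicator_of_mem hz.1 _]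
      _ ≤ ‖π‖ * (C * s ^ 2) := (π.le_opNorm _).trans
          (mul_le_mul_of_nonneg_left (h1 _ ⟨hj z hz.1 y hy, hz.2⟩) (norm_nonneg _))
      _ = ‖π‖ * C * |s| * |s| := by rw [← sq_abs]; ring
      _ ≤ _ := mul_le_mul_of_nonneg_right h2.le (abs_nonneg _)
  obtain ⟨L, _, _, _, ι, h, hs⟩ := exists_lieRep hD
  have hcl : IsClosed (LinearMap.range ι : Set (E → E)) := Submodule.closed_of_finiteDimensional _
  obtain ⟨y₀, hy₀⟩ := hY.conn.nonempty
  refine ⟨V y₀, hV y₀ hy₀, fun z hz => ?_⟩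
  obtain ⟨c, Ψ, δ, O, -, δ0, hc, -, -, -, -, rfl⟩ := hY.mfd.ball hy₀ univ_mem
  have hd : ∀ z, ∀ u ∈ ball (0 : Fin m → ℂ) δ, DifferentiableAt ℂ (fun u => V (c u) z) u := fun z u hu => by
    by_cases hz : z ∈ D
    · simp only [V, indicator_of_mem hz]
      exact π.differentiableAt.comp u (anAt_comp_param ((j.analyticAt _).comp (analyticAt_const.prod (hc.ah u hu)))
        ((isOpen_ball.eventually_mem hu).mono fun u hu => hj z hz _ (hc.hO u hu).1.1)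
        (hW.an _ (hj z hz _ (hc.hO u hu).1.1))).differentiableAt
    · simp only [V, indicator_of_notMem hz]
      exact differentiableAt_const _
  have hA : ∀ u ∈ ball (0 : Fin m → ℂ) δ, ∀ e, Gen D fun z => fderiv ℂ (fun u => V (c u) z) u e := fun u hu e => by
    have l1 : HasDerivAt (fun s : ℝ => u + s • e) e 0 := by simpa using ((hasDerivAt_id' (0 : ℝ)).smul_const e).const_add u
    obtain ⟨a, ha⟩ := hcl.mem_of_tendsto (b := 𝓝[≠] (0 : ℝ)) (f := fun s : ℝ => s⁻¹ • (V (c (u + s • e)) - V (c u)))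
      (tendsto_pi_nhds.2 fun z => by
        simpa using hasDerivAt_iff_tendsto_slope_zero.1
          (((hd z u hu).hasFDerivAt.restrictScalars ℝ).comp_hasDerivAt_of_eq 0 l1 (by simp)))
      (nhdsWithin_le_nhds ((l1.continuousAt.eventually (isOpen_ball.mem_nhds (by simpa using hu))).mono fun s hs' =>
        Submodule.smul_mem _ _ (sub_mem (hs _ (hV _ (hc.hO _ hs').1.1)) (hs _ (hV _ (hc.hO _ hu).1.1)))))
    exact ha ▸ h.gen a
  refine ident hY.mfd hY.conn.isPreconnected (π.comp_analyticOn (hW.an.comp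
    (fun y _ => ((j.analyticAt _).comp (analyticAt_const.prod analyticAt_id)).analyticWithinAt)
    fun y hy => hj z hz y hy)) analyticOn_const hy₀ ?_
  rw [← hc.map_nhds (mem_ball_self δ0)]
  filter_upwards [mem_map.2 (show c ⁻¹' (c '' ball 0 δ) ∈ 𝓝 0 from
    mem_of_superset (ball_mem_nhds 0 δ0) (subset_preimage_image _ _))]
  rintro _ ⟨u, hu, rfl⟩
  refine (indicator_of_mem hz fun z => π (W (j (z, c u)))).symm.trans (isOpen_ball.is_const_of_fderiv_eq_zero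
    (convex_ball 0 δ).isPreconnected (fun u hu => (hd z u hu).differentiableWithinAt) (fun u hu => ?_) hu
    (mem_ball_self δ0))
  ext1 e
  refine comm_zero hD (hA u hu e) (hA u hu (I • e)) hz (map_smul _ _ _) ?_
  rw [show (fun z => fderiv ℂ (fun u => V (c u) z) u (I • e)) = I • fun z => fderiv ℂ (fun u => V (c u) z) u e from
    funext fun z => map_smul _ _ _, br_smul_right I (hA u hu e).vf (hA u hu e).vf, br_self, smul_zero]


/-- Product theorem.  For fixed `y`, `T s z = (fl W s (z, y)).1` satisfies the hypotheses of `trotter`, so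
`W₁(·, y) ∈ Gen D`.  `y ↦ W₁(·, y)` is holomorphic with values in the finite-dimensional real space `Gen D`
(or use `Gen.lim`): its derivatives in the directions `v` and `I • v` are `A` and `I • A`, both in `Gen D`, and
`comm_zero` gives `A = 0`.  Work in a chart of `Y`; `Y` is connected. -/
theorem gen_prod {n m : ℕ} {D : Set E} {Y : Set F} (hD : CM n D) (hY : CM m Y) {W : E × F → E × F}
    (hW : Gen (D ×ˢ Y) W) : ∃ (W₁ : E → E) (W₂ : F → F), Gen D W₁ ∧ Gen Y W₂ ∧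
      (∀ z ∈ D, ∀ y ∈ Y, W (z, y) = (W₁ z, W₂ y)) ∧
      ∀ t, ∀ z ∈ D, ∀ y ∈ Y, fl (D ×ˢ Y) W t (z, y) = (fl D W₁ t z, fl Y W₂ t y) := by
  have hX := hD.mfd.prod hY.mfd
  obtain ⟨W₁, g₁, e₁⟩ := gp_half hD hY hX hW (.id ℂ _) (.fst ℂ E F) (fun z hz y hy => ⟨hz, hy⟩) (fun p hp => hp.1)
    fun _ _ => rfl
  obtain ⟨W₂, g₂, e₂⟩ := gp_half hY hD hX hW (ContinuousLinearEquiv.prodComm ℂ F E) (.snd ℂ E F)
    (fun z hz y hy => ⟨hy, hz⟩) (fun p hp => hp.2) fun _ _ => rfl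
  have e : ∀ z ∈ D, ∀ y ∈ Y, W (z, y) = (W₁ z, W₂ y) := fun z hz y hy => Prod.ext (e₁ z hz y hy) (e₂ y hy z hz)
  refine ⟨W₁, W₂, g₁, g₂, e, fun t z hz y hy => ?_⟩
  have := hW.fl_eq (c := fun t => (fl D W₁ t z, fl Y W₂ t y)) (fun t => ⟨⟨g₁.isFlow.maps t hz, g₂.isFlow.maps t hy⟩, by
    rw [e _ (g₁.isFlow.maps t hz) _ (g₂.isFlow.maps t hy)]
    exact (g₁.isFlow.hasDerivAt hz t).prodMk (g₂.isFlow.hasDerivAt hy t)⟩) t
  rw [this, g₁.isFlow.zero z hz, g₂.isFlow.zero y hy]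

theorem gen_prod_mk {D : Set E} {Y : Set F} {W₁ : E → E} {W₂ : F → F} (h₁ : Gen D W₁) (h₂ : Gen Y W₂) :
    Gen (D ×ˢ Y) ((D ×ˢ Y).indicator fun p => (W₁ p.1, W₂ p.2)) := by
  have f₁ := h₁.isFlow
  have f₂ := h₂.isFlow
  refine ⟨((h₁.an.comp analyticOn_fst fun p hp => hp.1).prod (h₂.an.comp analyticOn_snd fun p hp => hp.2)).congr
    fun p hp => indicator_of_mem hp _, fun p hp => indicator_of_notMem hp _,
    fun t p => (fl D W₁ t p.1, fl Y W₂ t p.2), ⟨fun t => ((f₁.an t).comp analyticOn_fst fun p hp => hp.1).prod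
      ((f₂.an t).comp analyticOn_snd fun p hp => hp.2), fun t p hp => ⟨f₁.maps t hp.1, f₂.maps t hp.2⟩,
      fun p hp => Prod.ext (f₁.zero _ hp.1) (f₂.zero _ hp.2),
      fun s t p hp => Prod.ext (f₁.add s t _ hp.1) (f₂.add s t _ hp.2)⟩, fun p hp => ?_⟩
  rw [indicator_of_mem hp]
  exact (f₁.der _ hp.1).prodMk (f₂.der _ hp.2)

/-- The largest complex-valued subspace of `Gen X`: it is invariant under automorphisms, hence an ideal
(`LieRep.Ad`), and has trivial centre (`comm_zero`), so that the Killing form is negative on isotropy algebras. -/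
theorem exists_cx {n : ℕ} {X : Set E} (hX : CM n X) :
    ∃ (L : Type) (_ : LieRing L) (_ : LieAlgebra ℝ L) (_ : FiniteDimensional ℝ L) (ι : L →ₗ[ℝ] (E → E)),
      LieRep X ι ∧ CxVal X (range ι) ∧
      (∀ S : Submodule ℝ (E → E), (∀ W ∈ S, Gen X W) → CxVal X S → ∀ W ∈ S, W ∈ range ι) ∧
      (∀ f g, Bih X X f g → ∀ a, push X X f g (ι a) ∈ range ι) ∧ ∀ x ∈ X, NegK (evx ι x) := by
  obtain ⟨L, _, _, _, ι, h, hs⟩ := exists_lieRep hX
  let K : Submodule ℝ L :=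
    { carrier := {a | ∃ S : Submodule ℝ (E → E), (∀ W ∈ S, Gen X W) ∧ CxVal X S ∧ ι a ∈ S}
      zero_mem' := ⟨⊥, fun W hW => (Submodule.mem_bot ℝ).1 hW ▸ gen_zero X, fun x _ W hW =>
        ⟨0, zero_mem _, by rw [(Submodule.mem_bot ℝ).1 hW]; simp⟩, by simp⟩
      smul_mem' := fun c a ⟨S, h1, h2, h3⟩ => ⟨S, h1, h2, map_smul ι c a ▸ S.smul_mem c h3⟩
      add_mem' := fun {a b} ⟨S, h1, h2, h3⟩ ⟨S', h1', h2', h3'⟩ => ⟨S ⊔ S', fun W hW => by
          obtain ⟨U, hU, V, hV, rfl⟩ := Submodule.mem_sup.1 hW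
          exact (h1 U hU).add hX (h1' V hV), fun x hx W hW => by
          obtain ⟨U, hU, V, hV, rfl⟩ := Submodule.mem_sup.1 hW
          obtain ⟨U', hU', e⟩ := h2 x hx U hU
          obtain ⟨V', hV', e'⟩ := h2' x hx V hV
          exact ⟨U' + V', Submodule.add_mem_sup hU' hV', by rw [Pi.add_apply, Pi.add_apply, e, e', smul_add]⟩,
        map_add ι a b ▸ Submodule.add_mem_sup h3 h3'⟩ }
  have hK : ∀ S : Submodule ℝ (E → E), (∀ W ∈ S, Gen X W) → CxVal X S → ∀ W ∈ S, ∃ a ∈ K, ι a = W :=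
    fun S h1 h2 W hW => by
      obtain ⟨a, rfl⟩ := hs W (h1 W hW)
      exact ⟨a, ⟨S, h1, h2, hW⟩, rfl⟩
  have hp : ∀ f g, Bih X X f g → ∀ a ∈ K, ∃ b ∈ K, ι b = push X X f g (ι a) := fun f g hf a ⟨S, h1, h2, h3⟩ =>
    hK (S.map (⟨⟨push X X f g, push_add f g⟩, push_rsmul f g⟩ : (E → E) →ₗ[ℝ] E → E)) (by
      rintro _ ⟨W, hW, rfl⟩
      exact ((h1 W hW).pushf hX.mfd hf).1) (by
      rintro y hy _ ⟨W, hW, rfl⟩
      obtain ⟨W', hW', e⟩ := h2 _ (hf.mg hy) W hW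
      refine ⟨_, ⟨W', hW', rfl⟩, ?_⟩
      change push X X f g W' y = I • push X X f g W y
      rw [← hf.fg y hy, push_apply hf _ (hf.mg hy), push_apply hf _ (hf.mg hy), e, map_smul]) _ ⟨_, h3, rfl⟩
  have hl : ∀ v, ∀ a ∈ K, ⁅v, a⁆ ∈ K := fun v a ha => by
    obtain ⟨Ad, h1, -, -, h2, h3⟩ := h.Ad hX.mfd v
    refine (Subspace.forall_mem_dualAnnihilator_apply_eq_zero_iff K _).1 fun ℓ hℓ => ?_
    have h4 := h3 ℓ a 0
    have h5 : (fun s => ℓ (Ad s a)) = fun _ => 0 := funext fun s => by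
      obtain ⟨b, hb, e⟩ := hp _ _ ((h.gen v).isFlow.toIsGrp.bih s) a ha
      exact (Submodule.mem_dualAnnihilator ℓ).1 hℓ _ (h.inj (e.trans (h1 s a).symm) ▸ hb)
    rw [h5, h2] at h4
    exact neg_eq_zero.1 (h4.unique (hasDerivAt_const _ _))
  let K' : LieSubalgebra ℝ L := { K with lie_mem' := fun {v a} _ ha => hl v a ha }
  have h' := h.sub K'
  have hc : CxVal X (range (ι.comp (K'.incl : K' →ₗ⁅ℝ⁆ L).toLinearMap)) := by
    rintro x hx _ ⟨⟨a, S, h1, h2, h3⟩, rfl⟩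
    obtain ⟨W, hW, e⟩ := h2 x hx _ h3
    obtain ⟨b, hb, rfl⟩ := hK S h1 h2 W hW
    exact ⟨_, ⟨⟨b, hb⟩, rfl⟩, e⟩
  refine ⟨K', inferInstance, inferInstance, inferInstance, _, h', hc, fun S h1 h2 W hW => ?_, fun f g hf a => ?_,
    fun x hx k hk h0 => ?_⟩
  · obtain ⟨b, hb, e⟩ := hK S h1 h2 W hW
    exact ⟨⟨b, hb⟩, e⟩
  · obtain ⟨b, hb, e⟩ := hp f g hf a a.2
    exact ⟨⟨b, hb⟩, e⟩
  · obtain ⟨b, h1, h2, h3⟩ := h'.iso hX hx hk
    refine killing_neg_of_skew h1 h2 h3 ?_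
    by_contra! hz
    refine h0 (h'.inj ((funext fun y => ?_).trans (map_zero _).symm))
    by_cases hy : y ∈ X
    · obtain ⟨_, ⟨a, rfl⟩, e⟩ := hc y hy _ ⟨k, rfl⟩
      exact comm_zero hX (h'.gen k) (h'.gen a) hy e (by rw [← h'.lie, hz, map_zero])
    · exact (h'.gen k).off y hy

end Crest.Agent.R264
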