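import Crest.Agent.R264.Lie.Flow

set_option autoImplicit false
set_option linter.unusedSectionVars false
open Set Filter Topology Metric Complex

namespace Crest.Agent.R264

variable {E F G : Type}
  [NormedAddCommGroup E] [NormedSpace ℂ E] [NormedSpace ℝ E] [IsScalarTower ℝ ℂ E] [FiniteDimensional ℂ E]
  [NormedAddCommGroup F] [NormedSpace ℂ F] [NormedSpace ℝ F] [IsScalarTower ℝ ℂ F] [FiniteDimensional ℂ F]
  [NormedAddCommGroup G] [NormedSpace ℂ G] [NormedSpace ℝ G] [IsScalarTower ℝ ℂ G] [FiniteDimensional ℂ G]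

/-! Trotter type lemmas: `Gen X` is a Lie algebra. -/

/-- discrete orbits: induction on `m` -/
theorem trot_orbit {X : Set E} {W : E → E} (hW : ContinuousOn W X) {T : ℝ → E → E}
    (hT : ∀ᶠ s in 𝓝 (0 : ℝ), MapsTo (T s) X X)
    (hE : ∀ x ∈ X, ∀ ε > 0, ∃ O ∈ 𝓝 x, ∀ᶠ s in 𝓝 (0 : ℝ), ∀ y ∈ X ∩ O, ‖T s y - y - s • W y‖ ≤ ε * |s|)
    {x : E} (hx : x ∈ X) {ε : ℝ} (hε : 0 < ε) : ∃ O ∈ 𝓝 x, ∃ δ > 0, ∀ᶠ τ : ℝ in 𝓝[>] 0, ∀ y ∈ X ∩ O, ∀ m : ℕ,
      m * τ ≤ δ → ‖(T τ)^[m] y - y - (m * τ) • W x‖ ≤ ε * (m * τ) := by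
  obtain ⟨O1, hO1, h1⟩ := hE x hx (ε / 2) (half_pos hε)
  have h2 : ∀ᶠ y in 𝓝 x, y ∈ X → dist (W y) (W x) < ε / 2 :=
    eventually_nhdsWithin_iff.1 (Metric.tendsto_nhds.1 (hW x hx) _ (half_pos hε))
  obtain ⟨ρ, ρ0, hρ⟩ := Metric.eventually_nhds_iff_ball.1 (h2.and hO1)
  refine ⟨ball x (ρ / 2), ball_mem_nhds _ (half_pos ρ0), ρ / 2 / (‖W x‖ + ε), by positivity, ?_⟩
  filter_upwards [nhdsWithin_le_nhds (hT.and h1), self_mem_nhdsWithin] with τ ⟨t1, t2⟩ (τ0 : 0 < τ) y hy m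
  induction m with
  | zero => simp
  | succ m ih =>
    intro hm
    push_cast at hm ⊢
    have a0 : (m : ℝ) * τ ≤ ρ / 2 / (‖W x‖ + ε) := by linarith
    have a1 := ih a0
    rw [Function.iterate_succ_apply']
    have zX : (T τ)^[m] y ∈ X := t1.iterate m hy.1
    generalize (T τ)^[m] y = z at *
    have zb : z ∈ ball x ρ := by
      have b1 := mem_ball_iff_norm.1 hy.2
      rw [le_div_iff₀ (by positivity)] at a0
      rw [mem_ball_iff_norm, show z - x = (z - y - (m * τ) • W x) + (m * τ) • W x + (y - x) by abel]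
      refine norm_add₃_le.trans_lt ?_
      rw [norm_smul, Real.norm_of_nonneg (by positivity)]
      linarith
    have a2 := t2 z ⟨zX, (hρ z zb).2⟩
    have a3 := mul_le_mul_of_nonneg_left ((hρ z zb).1 zX).le τ0.le
    rw [show T τ z - y - ((m + 1) * τ) • W x = (T τ z - z - τ • W z) + τ • (W z - W x) + (z - y - (m * τ) • W x) by
      module]
    refine norm_add₃_le.trans ?_
    rw [norm_smul, Real.norm_of_nonneg τ0.le, ← dist_eq_norm (W z)]
    rw [abs_of_pos τ0] at a2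
    linarith

theorem an_iter {X : Set E} {g : E → E} (hg : AnalyticOn ℂ g X) (hm : MapsTo g X X) (m : ℕ) :
    AnalyticOn ℂ g^[m] X := by
  induction m with
  | zero => exact analyticOn_id
  | succ m ih => rw [Function.iterate_succ]; exact ih.comp hg hm

theorem trot_floor {s : ℝ} (hs : 0 ≤ s) : Tendsto (fun τ : ℝ => (⌊s / τ⌋₊ : ℝ) * τ) (𝓝[>] 0) (𝓝 s) := by
  have h : Tendsto (fun τ : ℝ => s - τ) (𝓝[>] 0) (𝓝 (s - 0)) :=
    (tendsto_const_nhds.sub tendsto_id).mono_left nhdsWithin_le_nhds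
  rw [sub_zero] at h
  refine tendsto_of_tendsto_of_tendsto_of_le_of_le' h tendsto_const_nhds ?_ ?_ <;>
    filter_upwards [self_mem_nhdsWithin] with τ (τ0 : 0 < τ)
  · have := (div_lt_iff₀ τ0).1 (Nat.lt_floor_add_one (s / τ))
    linarith
  · exact (le_div_iff₀ τ0).1 (Nat.floor_le (by positivity))

/-- the limit semigroup -/
theorem trot_semi {n : ℕ} {X : Set E} (hX : CM n X) {W : E → E} (hW : ContinuousOn W X) {T : ℝ → E → E}
    (hT : ∀ᶠ s in 𝓝 (0 : ℝ), AnalyticOn ℂ (T s) X ∧ MapsTo (T s) X X)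
    (hE : ∀ x ∈ X, ∀ ε > 0, ∃ O ∈ 𝓝 x, ∀ᶠ s in 𝓝 (0 : ℝ), ∀ y ∈ X ∩ O, ‖T s y - y - s • W y‖ ≤ ε * |s|) :
    ∃ ψ : ℝ → E → E, (∀ s, 0 ≤ s → AnalyticOn ℂ (ψ s) X ∧ MapsTo (ψ s) X X) ∧
      (∀ s t, 0 ≤ s → 0 ≤ t → ∀ y ∈ X, ψ (s + t) y = ψ s (ψ t y)) ∧
      ∀ x ∈ X, ∀ ε > 0, ∃ O ∈ 𝓝 x, ∃ δ > 0, ∀ y ∈ X ∩ O, ∀ s ∈ Icc 0 δ, ‖ψ s y - y - s • W x‖ ≤ ε * s := by
  obtain ⟨R, hR⟩ := hX.bdd.exists_norm_le
  set U := Ultrafilter.of (𝓝[>] (0 : ℝ))
  have hU : (U : Filter ℝ) ≤ 𝓝[>] 0 := Ultrafilter.of_le _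
  have hc : ∀ᶠ τ in U, ∀ m : ℕ, AnalyticOn ℂ (T τ)^[m] X ∧ MapsTo (T τ)^[m] X X :=
    (hU.trans nhdsWithin_le_nhds) (hT.mono fun τ h m => ⟨an_iter h.1 h.2 m, h.2.iterate m⟩)
  choose ψ ha hl using fun s : ℝ => montel hX.mfd U (f := fun τ => (T τ)^[⌊s / τ⌋₊]) fun x _ =>
    ⟨univ, univ_mem, R, hc.mono fun τ h => ⟨(h _).1.mono inter_subset_left, fun y hy => hR _ ((h _).2 hy.1)⟩⟩
  have hO := fun x hx ε hε => trot_orbit hW (hT.mono fun _ h => h.2) hE (x := x) hx (ε := ε) hε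
  have h3 : ∀ x ∈ X, ∀ ε > 0, ∃ O ∈ 𝓝 x, ∃ δ > 0, ∀ y ∈ X ∩ O, ∀ s ∈ Icc 0 δ,
      ‖ψ s y - y - s • W x‖ ≤ ε * s := fun x hx ε hε => by
    obtain ⟨O, h1, δ, h2, h⟩ := hO x hx ε hε
    refine ⟨O, h1, δ, h2, fun y hy s hs => ?_⟩
    have a := (trot_floor hs.1).mono_left hU
    refine le_of_tendsto_of_tendsto ((((hl s).tendsto_at hy.1).sub_const y).sub (a.smul_const (W x))).norm
      (a.const_mul ε) ?_
    filter_upwards [hU h, hU self_mem_nhdsWithin] with τ h (τ0 : 0 < τ)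
    exact h y hy _ (((le_div_iff₀ τ0).1 (Nat.floor_le (div_nonneg hs.1 τ0.le))).trans hs.2)
  have h2 : ∀ s t, 0 ≤ s → 0 ≤ t → ∀ y ∈ X, ψ t y ∈ X → ψ s (ψ t y) ∈ X → ψ (s + t) y = ψ s (ψ t y) := by
    intro s t hs ht y hy h1 h2
    have a1 := tendsto_moving (hl s) h1 ((ha s).continuousOn _ h1)
      (tendsto_nhdsWithin_iff.2 ⟨(hl t).tendsto_at hy, hc.mono fun τ h => (h _).2 hy⟩)
    obtain ⟨O, o1, δ, δ0, h⟩ := hO _ h2 1 one_pos
    have a2 : ∀ᶠ τ in U, ⌊s / τ⌋₊ + ⌊t / τ⌋₊ ≤ ⌊(s + t) / τ⌋₊ := by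
      filter_upwards [hU self_mem_nhdsWithin] with τ (τ0 : 0 < τ)
      refine Nat.le_floor ?_
      rw [add_div, Nat.cast_add]
      exact add_le_add (Nat.floor_le (by positivity)) (Nat.floor_le (by positivity))
    have a3 : Tendsto (fun τ => ((⌊(s + t) / τ⌋₊ - (⌊s / τ⌋₊ + ⌊t / τ⌋₊) : ℕ) : ℝ) * τ) U (𝓝 0) := by
      have := (((trot_floor (add_nonneg hs ht)).sub ((trot_floor hs).add (trot_floor ht))).mono_left hU)
      rw [sub_self] at this
      refine this.congr' (a2.mono fun τ h => ?_)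
      simp only [Nat.cast_sub h, Nat.cast_add]
      ring
    have a4 := squeeze_zero_norm' (f := fun τ => (T τ)^[⌊(s + t) / τ⌋₊] y - (T τ)^[⌊s / τ⌋₊] ((T τ)^[⌊t / τ⌋₊] y) -
      (((⌊(s + t) / τ⌋₊ - (⌊s / τ⌋₊ + ⌊t / τ⌋₊) : ℕ) : ℝ) * τ) • W (ψ s (ψ t y))) ?_ a3
    · have a5 := tendsto_nhds_unique a4 ((((hl (s + t)).tendsto_at hy).sub a1).sub (a3.smul_const _))
      rw [zero_smul, sub_zero] at a5
      exact sub_eq_zero.1 a5.symm
    filter_upwards [hU h, hc, a1 o1, a2, a3.eventually (ge_mem_nhds δ0)] with τ b1 b2 b3 b4 b5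
    have := b1 _ ⟨(b2 _).2 ((b2 _).2 hy), b3⟩ _ b5
    rwa [← Function.iterate_add_apply, ← Function.iterate_add_apply, add_assoc, Nat.sub_add_cancel b4,
      one_mul] at this
  obtain ⟨x, hx⟩ := hX.conn.nonempty
  obtain ⟨δ, δ0, hδ⟩ : ∃ δ > 0, ∀ s ∈ Icc 0 δ, MapsTo (ψ s) X X := by
    obtain ⟨O', o1, o2, -, -, -, o3⟩ := hX.mfd.nbhd hx univ_mem
    obtain ⟨ρ, ρ0, hρ⟩ := Metric.isOpen_iff.1 o1 x o2
    obtain ⟨O, h1, δ, δ0, h⟩ := h3 x hx 1 one_pos
    refine ⟨min δ (ρ / 2 / (‖W x‖ + 1)), by positivity, fun s hs => ?_⟩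
    refine taut hX hX.mfd hX.conn.isPreconnected (l := U) (f := fun τ => (T τ)^[⌊s / τ⌋₊])
      (fun y _ => ⟨univ, univ_mem, hc.mono fun τ h => ⟨(h _).1.mono inter_subset_left, (h _).2.mono_left inter_subset_left⟩⟩)
      (fun y hy => (hl s).tendsto_at hy) hx
      (o3 (o1.closure_inter ⟨mem_closure_of_tendsto ((hl s).tendsto_at hx) (hc.mono fun τ h => (h _).2 hx),
        hρ ?_⟩)).1
    have a1 := h x ⟨hx, mem_of_mem_nhds h1⟩ s ⟨hs.1, hs.2.trans (min_le_left _ _)⟩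
    have a2 := (le_div_iff₀ (by positivity)).1 (hs.2.trans (min_le_right _ _))
    rw [mem_ball_iff_norm, ← sub_add_cancel (ψ s x - x) (s • W x)]
    refine (norm_add_le _ _).trans_lt ?_
    rw [norm_smul, Real.norm_of_nonneg hs.1]
    linarith
  have h1 : ∀ k : ℕ, ∀ s ∈ Icc 0 (k * δ), MapsTo (ψ s) X X := by
    intro k
    induction k with
    | zero => exact fun s hs => hδ s ⟨hs.1, hs.2.trans (by simpa using δ0.le)⟩
    | succ k ih =>
      intro s hs y hy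
      rcases le_total s δ with h | h
      · exact hδ s ⟨hs.1, h⟩ hy
      · have a1 := ih (s - δ) ⟨by linarith, by have := hs.2; push_cast at this; linarith⟩ hy
        have a2 := hδ δ ⟨δ0.le, le_rfl⟩ a1
        rwa [← h2 _ _ δ0.le (by linarith) y hy a1 a2, add_sub_cancel] at a2
  have h1' : ∀ s, 0 ≤ s → MapsTo (ψ s) X X := fun s hs =>
    h1 ⌈s / δ⌉₊ s ⟨hs, (div_le_iff₀ δ0).1 (Nat.le_ceil _)⟩
  exact ⟨ψ, fun s hs => ⟨ha s, h1' s hs⟩, fun s t hs ht y hy =>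
    h2 s t hs ht y hy (h1' t ht hy) (h1' s hs (h1' t ht hy)), h3⟩

/-- The semigroup consists of integral curves.  Right derivative: `ψ (s + σ) y = ψ σ (ψ s y)`.  Left derivative:
`ψ s y = ψ σ z`, `z = ψ (s - σ) y → ψ s y` since `‖z - ψ s y‖ ≤ L ‖y - ψ σ y‖` (`unif_lip`). -/
theorem trot_deriv {n : ℕ} {X : Set E} (hX : CM n X) {W : E → E} {ψ : ℝ → E → E}
    (h1 : ∀ s, 0 ≤ s → AnalyticOn ℂ (ψ s) X ∧ MapsTo (ψ s) X X)
    (h2 : ∀ s t, 0 ≤ s → 0 ≤ t → ∀ y ∈ X, ψ (s + t) y = ψ s (ψ t y))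
    (h3 : ∀ x ∈ X, ∀ ε > 0, ∃ O ∈ 𝓝 x, ∃ δ > 0, ∀ y ∈ X ∩ O, ∀ s ∈ Icc 0 δ, ‖ψ s y - y - s • W x‖ ≤ ε * s)
    {y : E} (hy : y ∈ X) : ψ 0 y = y ∧ ∀ s, 0 ≤ s → HasDerivWithinAt (fun t => ψ t y) (W (ψ s y)) (Ici 0) s := by
  have h0 : ∀ y ∈ X, ψ 0 y = y := fun y hy => by
    obtain ⟨O, o1, δ, δ0, h⟩ := h3 y hy 1 one_pos
    simpa [sub_eq_zero] using h y ⟨hy, mem_of_mem_nhds o1⟩ 0 ⟨le_rfl, δ0.le⟩
  refine ⟨h0 y hy, fun s hs => ?_⟩
  have hx := (h1 s hs).2 hy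
  rw [hasDerivWithinAt_iff_isLittleO, Asymptotics.isLittleO_iff]
  intro ε hε
  obtain ⟨O, o1, δ, δ0, h⟩ := h3 _ hx ε hε
  obtain ⟨R, hR⟩ := hX.bdd.exists_norm_le
  obtain ⟨O1, p1, -, L, L0, hL⟩ := unif_lip (F := E) hX.mfd hy univ_mem
  obtain ⟨O2, p2, δ2, δ20, h'⟩ := h3 y hy 1 one_pos
  have c0 : Tendsto (fun t : ℝ => s - t) (𝓝 s) (𝓝 0) := by
    simpa using (tendsto_const_nhds (x := s)).sub (tendsto_id (x := 𝓝 s))
  have c1 : Tendsto (fun t => ψ (s - t) y) (𝓝[Iic s] s) (𝓝 y) := by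
    rw [tendsto_iff_norm_sub_tendsto_zero]
    have := (c0.const_mul (‖W y‖ + 1)).mono_left (nhdsWithin_le_nhds (s := Iic s))
    rw [mul_zero] at this
    refine squeeze_zero' (Eventually.of_forall fun _ => norm_nonneg _) ?_ this
    filter_upwards [self_mem_nhdsWithin, nhdsWithin_le_nhds (c0.eventually (ge_mem_nhds δ20))] with t (t1 : t ≤ s) t2
    have a1 := h' y ⟨hy, mem_of_mem_nhds p2⟩ _ ⟨sub_nonneg.2 t1, t2⟩
    rw [← sub_add_cancel (ψ (s - t) y - y) ((s - t) • W y)]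
    refine (norm_add_le _ _).trans ?_
    rw [norm_smul, Real.norm_of_nonneg (sub_nonneg.2 t1)]
    linarith
  have c2 : Tendsto (fun t => ψ t y) (𝓝[Icc 0 s] s) (𝓝 (ψ s y)) := by
    have c3 := c1.mono_left (nhdsWithin_mono _ (Icc_subset_Iic_self (a := 0)))
    rw [tendsto_iff_norm_sub_tendsto_zero] at c3 ⊢
    have := c3.const_mul (L * R)
    rw [mul_zero] at this
    refine squeeze_zero' (Eventually.of_forall fun _ => norm_nonneg _) ?_ this
    filter_upwards [self_mem_nhdsWithin, nhdsWithin_mono _ (Icc_subset_Iic_self (a := 0)) (c1 p1)] with t t1 t2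
    have a1 := (hL (ψ t) R ((h1 t t1.1).1.mono inter_subset_left) fun z hz => hR _ ((h1 t t1.1).2 hz.1)).1
      _ ⟨(h1 _ (sub_nonneg.2 t1.2)).2 hy, t2⟩ y ⟨hy, mem_of_mem_nhds p1⟩
    rwa [← h2 _ _ t1.1 (sub_nonneg.2 t1.2) y hy, add_sub_cancel, norm_sub_rev] at a1
  rw [← Icc_union_Ici_eq_Ici hs, nhdsWithin_union, eventually_sup]
  constructor
  · filter_upwards [self_mem_nhdsWithin, c2 o1, nhdsWithin_le_nhds (c0.eventually (ge_mem_nhds δ0))] with t t1 t2 t3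
    have a1 := h _ ⟨(h1 t t1.1).2 hy, t2⟩ _ ⟨sub_nonneg.2 t1.2, t3⟩
    rwa [← h2 _ _ (sub_nonneg.2 t1.2) t1.1 y hy, sub_add_cancel, ← norm_neg, show -(ψ s y - ψ t y - (s - t) • W (ψ s y))
      = ψ t y - ψ s y - (t - s) • W (ψ s y) by module, ← Real.norm_of_nonneg (sub_nonneg.2 t1.2),
      norm_sub_rev s] at a1
  · filter_upwards [self_mem_nhdsWithin, nhdsWithin_le_nhds (ge_mem_nhds (lt_add_of_pos_right s δ0))] with t
      (t1 : s ≤ t) t2
    have a1 := h _ ⟨hx, mem_of_mem_nhds o1⟩ (t - s) ⟨sub_nonneg.2 t1, by linarith⟩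
    rw [← h2 _ _ (sub_nonneg.2 t1) hs y hy, sub_add_cancel] at a1
    rwa [Real.norm_of_nonneg (sub_nonneg.2 t1)]

/-- Trotter lemma.  Fix `h > 0` with `T s` a self-map for `|s| ≤ h`.  For `s ≥ 0` put
`c k s = (T (h / k))^[⌊k s / h⌋₊]`, `ψ s = lim_U c k s` (`montel`, `U` an ultrafilter `≤ atTop`).  Telescoping: near `x`,
for small `s` the discrete orbit stays in a compact neighbourhood and `‖c k s x - x - s W x‖ ≤ o(s) + O(1/k)`.  Hence
`ψ s x₀ ∈ X` for small `s`, `ψ s` maps `X` to `X` (`taut`); `ψ (s + t) = ψ s ∘ ψ t` whenever both map `X` to `X`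
(`c k (s+t) = T^[e] ∘ c k s ∘ c k t`, `e ≤ 1`, `tendsto_moving`), so all `ψ s` do.  `s ↦ ψ s y` is continuous
(`cd_map_le`, `norm_le_cd`) with continuous right derivative `W (ψ s y)`, so it is an integral curve.  The same for
`s ↦ T (-s)` and `-W`; glue at `0`; `gen_of_curves`. -/
theorem trotter {n : ℕ} {X : Set E} (hX : CM n X) {W : E → E} (hW : AnalyticOn ℂ W X) (h0 : ∀ x, x ∉ X → W x = 0)
    {T : ℝ → E → E} (hT : ∀ᶠ s in 𝓝 (0 : ℝ), AnalyticOn ℂ (T s) X ∧ MapsTo (T s) X X)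
    (hE : ∀ x ∈ X, ∀ ε > 0, ∃ O ∈ 𝓝 x, ∀ᶠ s in 𝓝 (0 : ℝ), ∀ y ∈ X ∩ O, ‖T s y - y - s • W y‖ ≤ ε * |s|) :
    Gen X W := by
  obtain ⟨ψ, a1, a2, a3⟩ := trot_semi hX hW.continuousOn hT hE
  have hn : Tendsto (fun s : ℝ => -s) (𝓝 0) (𝓝 0) := by simpa using (tendsto_id (x := 𝓝 (0 : ℝ))).neg
  obtain ⟨χ, b1, b2, b3⟩ := trot_semi hX (W := fun y => -W y) (T := fun s => T (-s)) hW.continuousOn.neg
    (hn.eventually hT) fun x hx ε hε => by
      obtain ⟨O, h1, h2⟩ := hE x hx ε hε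
      exact ⟨O, h1, (hn.eventually h2).mono fun s h y hy => by simpa using h y hy⟩
  have a := fun y hy => trot_deriv hX a1 a2 a3 (y := y) hy
  have b := fun y hy => trot_deriv hX b1 b2 b3 (y := y) hy
  refine (gen_of_curves hW h0 (φ := fun s => if 0 ≤ s then ψ s else χ (-s)) (fun t => ?_)
    (fun x hx => by simpa using (a x hx).1) fun x hx t => ?_).1
  · split_ifs with h
    exacts [a1 t h, b1 _ (by linarith)]
  have e1 : ∀ s, 0 ≤ s → (if 0 ≤ s then ψ s else χ (-s)) x = ψ s x := fun s h => by rw [if_pos h]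
  have e2 : ∀ s, s ≤ 0 → (if 0 ≤ s then ψ s else χ (-s)) x = χ (-s) x := fun s h => by
    split_ifs with h'
    · rw [le_antisymm h h', neg_zero, (a x hx).1, (b x hx).1]
    · rfl
  have d1 : 0 ≤ t → HasDerivWithinAt (fun s => (if 0 ≤ s then ψ s else χ (-s)) x)
      (W ((if 0 ≤ t then ψ t else χ (-t)) x)) (Ici 0) t := fun h =>
    e1 t h ▸ ((a x hx).2 t h).congr e1 (e1 t h)
  have d2 : t ≤ 0 → HasDerivWithinAt (fun s => (if 0 ≤ s then ψ s else χ (-s)) x)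
      (W ((if 0 ≤ t then ψ t else χ (-t)) x)) (Iic 0) t := fun h => by
    have := ((b x hx).2 (-t) (by linarith)).scomp t (hasDerivAt_neg t).hasDerivWithinAt
      (s := Iic 0) fun s (hs : s ≤ 0) => (neg_nonneg.2 hs : 0 ≤ -s)
    rw [neg_one_smul, neg_neg] at this
    exact e2 t h ▸ this.congr e2 (e2 t h)
  rcases lt_trichotomy t 0 with h | rfl | h
  · exact (d2 h.le).hasDerivAt (Iic_mem_nhds h)
  · simpa only [Iic_union_Ici, hasDerivWithinAt_univ] using (d2 le_rfl).union (d1 le_rfl)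
  · exact (d1 h.le).hasDerivAt (Ici_mem_nhds h)

theorem curve_est_pos {c c' : ℝ → E} (hc : ∀ t, HasDerivAt c (c' t) t) {x v : E} {ρ ε δ : ℝ} (hε : 0 ≤ ε)
    (h : ∀ t, c t ∈ ball x ρ → ‖c' t - v‖ < ε) (h0 : ‖c 0 - x‖ + δ * (‖v‖ + ε) < ρ) {s : ℝ} (hs : s ∈ Icc 0 δ) :
    ‖c s - c 0 - s • v‖ ≤ ε * s := by
  have hd : ∀ t, HasDerivAt (fun t => c t - c 0 - t • v) (c' t - v) t := fun t => by
    simpa using ((hc t).sub_const (c 0)).fun_sub ((hasDerivAt_id t).smul_const v)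
  refine image_norm_le_of_norm_deriv_right_lt_deriv_boundary (f := fun t => c t - c 0 - t • v) (a := 0) (b := δ)
    (B := fun t => ε * t) (B' := fun _ => ε) (fun t _ => (hd t).continuousAt.continuousWithinAt)
    (fun t _ => (hd t).hasDerivWithinAt) (by simp) (fun t => by simpa using (hasDerivAt_id t).const_mul ε)
    (fun t ht e => h t ?_) hs
  rw [mem_ball_iff_norm, show c t - x = (c t - c 0 - t • v) + t • v + (c 0 - x) by abel]
  refine norm_add₃_le.trans_lt ?_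
  rw [e, norm_smul, Real.norm_of_nonneg ht.1]
  have := mul_le_mul_of_nonneg_right ht.2.le (add_nonneg (norm_nonneg v) hε)
  linarith

/-- exit time estimate (`image_norm_le_of_norm_deriv_right_lt_deriv_boundary`; `s < 0` by reflection) -/
theorem curve_est {c c' : ℝ → E} (hc : ∀ t, HasDerivAt c (c' t) t) {x v : E} {ρ ε δ : ℝ} (hε : 0 ≤ ε)
    (h : ∀ t, c t ∈ ball x ρ → ‖c' t - v‖ < ε) (h0 : ‖c 0 - x‖ + δ * (‖v‖ + ε) < ρ) {s : ℝ} (hs : |s| ≤ δ) :
    ‖c s - c 0 - s • v‖ ≤ ε * |s| := by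
  rcases le_total 0 s with h1 | h1
  · rw [abs_of_nonneg h1] at hs ⊢
    exact curve_est_pos hc hε h h0 ⟨h1, hs⟩
  · rw [abs_of_nonpos h1] at hs ⊢
    have := curve_est_pos (c := fun t => c (-t)) (c' := fun t => -c' (-t)) (v := -v) (x := x) (ρ := ρ) (δ := δ)
      (fun t => by simpa [Function.comp_def] using (hc (-t)).scomp t (hasDerivAt_neg t)) hε
      (fun t ht => by rw [neg_sub_neg, norm_sub_rev]; exact h _ ht) (by simpa using h0) (s := -s)
      ⟨neg_nonneg.2 h1, hs⟩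
    simpa using this

/-- uniform version for the flows of all fields close to `v` near `x` (`curve_est`) -/
theorem fl_est {X : Set E} {x v : E} {ρ ε : ℝ} (hρ : 0 < ρ) (hε : 0 < ε) : ∃ δ > 0, ∀ W, Gen X W →
    (∀ z ∈ X ∩ ball x ρ, ‖W z - v‖ < ε) → ∀ y ∈ X ∩ ball x δ, ∀ s : ℝ, |s| ≤ δ →
      ‖fl X W s y - y - s • v‖ ≤ ε * |s| ∧ fl X W s y ∈ ball x ρ := by
  have hp : 0 < ‖v‖ + ε + 1 := by positivity
  refine ⟨ρ / (‖v‖ + ε + 1), by positivity, fun W hW h y hy s hs => ?_⟩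
  have hf := hW.isFlow
  have h1 := mem_ball_iff_norm.1 hy.2
  have h2 : ρ / (‖v‖ + ε + 1) + ρ / (‖v‖ + ε + 1) * (‖v‖ + ε) = ρ := by field_simp; ring
  have := curve_est (c := fun t => fl X W t y) (x := x) (v := v) (ρ := ρ) (hf.hasDerivAt hy.1) hε.le
    (fun t ht => h _ ⟨hf.maps t hy.1, ht⟩) (δ := ρ / (‖v‖ + ε + 1)) (by rw [hf.zero y hy.1]; linarith) hs
  rw [hf.zero y hy.1] at this
  refine ⟨this, ?_⟩
  rw [mem_ball_iff_norm, show fl X W s y - x = (fl X W s y - y - s • v) + s • v + (y - x) by abel]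
  refine norm_add₃_le.trans_lt ?_
  rw [norm_smul, Real.norm_eq_abs]
  have := mul_le_mul_of_nonneg_right hs (add_nonneg (norm_nonneg v) hε.le)
  linarith

/-- pointwise differentiability in the parameter gives the locally uniform estimate needed in `trotter` -/
theorem flow_est {n : ℕ} {X : Set E} (hX : Mfd n X) {W : E → E} (h : Gen X W) {x : E} (hx : x ∈ X) :
    ∃ O ∈ 𝓝 x, ∃ C : ℝ, ∀ᶠ s in 𝓝 (0 : ℝ), ∀ y ∈ X ∩ O, ‖fl X W s y - y - s • W y‖ ≤ C * s ^ 2 := by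
  obtain ⟨g, g1, g2⟩ := anOn_iff.1 h.an x hx
  obtain ⟨K, t, ht, hK⟩ := (g1.contDiffAt (n := 1)).exists_lipschitzOnWith
  have h2 : ∀ᶠ y in 𝓝 x, y ∈ X → dist (W y) (W x) < 1 :=
    eventually_nhdsWithin_iff.1 (Metric.tendsto_nhds.1 (h.an.continuousOn x hx) _ one_pos)
  obtain ⟨ρ, ρ0, hρ⟩ := Metric.eventually_nhds_iff_ball.1 (h2.and ((eventually_nhdsWithin_iff.1 g2).and ht))
  obtain ⟨δ, δ0, hδ⟩ := fl_est (X := X) (x := x) (v := W x) ρ0 one_pos
  have hδ := hδ W h fun z hz => by rw [← dist_eq_norm]; exact (hρ z hz.2).1 hz.1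
  have hf := h.isFlow
  refine ⟨ball x δ, ball_mem_nhds _ δ0, K * (‖W x‖ + 1), ?_⟩
  filter_upwards [Metric.closedBall_mem_nhds (0 : ℝ) δ0] with s hs y hy
  rw [mem_closedBall_zero_iff, Real.norm_eq_abs] at hs
  have hd : ∀ t, HasDerivAt (fun t => fl X W t y - t • W y) (W (fl X W t y) - W y) t := fun t => by
    simpa using (hf.hasDerivAt hy.1 t).fun_sub ((hasDerivAt_id t).smul_const (W y))
  have y0 := (hδ y hy 0 (by simpa using δ0.le)).2
  rw [hf.zero y hy.1] at y0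
  have := (convex_closedBall (0 : ℝ) |s|).norm_image_sub_le_of_norm_hasDerivWithin_le
    (C := K * (‖W x‖ + 1) * |s|) (fun t _ => (hd t).hasDerivWithinAt) (fun t ht => ?_)
    (mem_closedBall_self (abs_nonneg s)) (y := s) (by simp)
  · rw [hf.zero y hy.1, zero_smul, sub_zero, sub_zero, Real.norm_eq_abs, mul_assoc, abs_mul_abs_self, ← sq,
      sub_right_comm] at this
    exact this
  · rw [mem_closedBall_zero_iff, Real.norm_eq_abs] at ht
    obtain ⟨a1, a2⟩ := hδ y hy t (ht.trans hs)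
    rw [(hρ _ a2).2.1 (hf.maps t hy.1), (hρ _ y0).2.1 hy.1, mul_assoc]
    refine (hK.norm_sub_le (hρ _ a2).2.2 (hρ _ y0).2.2).trans (mul_le_mul_of_nonneg_left ?_ K.2)
    rw [← sub_add_cancel (fl X W t y - y) (t • W x)]
    refine (norm_add_le _ _).trans ?_
    rw [norm_smul, Real.norm_eq_abs]
    have := mul_le_mul_of_nonneg_right ht (add_nonneg (norm_nonneg (W x)) zero_le_one)
    linarith

theorem near_est {X : Set E} {W : E → E} (hW : ContinuousOn W X) {x : E} (hx : x ∈ X) {ε : ℝ} (hε : 0 < ε) :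
    ∃ ρ > 0, ∀ z ∈ X ∩ ball x ρ, ‖W z - W x‖ < ε := by
  have h2 : ∀ᶠ y in 𝓝 x, y ∈ X → dist (W y) (W x) < ε :=
    eventually_nhdsWithin_iff.1 (Metric.tendsto_nhds.1 (hW x hx) _ hε)
  obtain ⟨ρ, ρ0, hρ⟩ := Metric.eventually_nhds_iff_ball.1 h2
  exact ⟨ρ, ρ0, fun z hz => by rw [← dist_eq_norm]; exact hρ z hz.2 hz.1⟩

/-- `T s = fl V s ∘ fl W s` -/
theorem Gen.add {n : ℕ} {X : Set E} (hX : CM n X) {V W : E → E} (hV : Gen X V) (hW : Gen X W) : Gen X (V + W) := by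
  have fV := hV.isFlow
  have fW := hW.isFlow
  refine trotter hX (hV.an.add hW.an) (fun x hx => by simp [hV.off x hx, hW.off x hx])
    (T := fun s => fl X V s ∘ fl X W s) (Eventually.of_forall fun s =>
      ⟨(fV.an s).comp (fW.an s) (fW.maps s), (fV.maps s).comp (fW.maps s)⟩) fun x hx ε hε => ?_
  have e4 : 0 < ε / 4 := by positivity
  obtain ⟨ρ1, a0, a1⟩ := near_est hV.an.continuousOn hx e4
  obtain ⟨δ1, b0, b1⟩ := fl_est (X := X) (x := x) (v := V x) a0 e4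
  obtain ⟨ρ2, c0, c1⟩ := near_est hW.an.continuousOn hx e4
  obtain ⟨δ2, d0, d1⟩ := fl_est (X := X) (x := x) (v := W x) (lt_min b0 c0) e4
  refine ⟨ball x (min δ2 (min ρ1 ρ2)), ball_mem_nhds _ (by positivity), ?_⟩
  filter_upwards [Metric.closedBall_mem_nhds (0 : ℝ) (lt_min b0 d0)] with s hs y hy
  rw [mem_closedBall_zero_iff, Real.norm_eq_abs, le_min_iff] at hs
  have hy2 := mem_ball.1 hy.2
  simp only [lt_min_iff] at hy2
  obtain ⟨f1, f2⟩ := d1 W hW (fun z hz => c1 z ⟨hz.1, ball_subset_ball (min_le_right _ _) hz.2⟩) y ⟨hy.1, hy2.1⟩ s hs.2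
  obtain ⟨f3, -⟩ := b1 V hV a1 _ ⟨fW.maps s hy.1, ball_subset_ball (min_le_left _ _) f2⟩ s hs.1
  have f4 := mul_le_mul_of_nonneg_left (a1 y ⟨hy.1, hy2.2.1⟩).le (abs_nonneg s)
  have f5 := mul_le_mul_of_nonneg_left (c1 y ⟨hy.1, hy2.2.2⟩).le (abs_nonneg s)
  rw [show (fl X V s ∘ fl X W s) y - y - s • (V + W) y = (fl X V s (fl X W s y) - fl X W s y - s • V x) +
    (fl X W s y - y - s • W x) - (s • (V y - V x) + s • (W y - W x)) by
      simp only [Function.comp_apply, Pi.add_apply]; module]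
  refine (norm_sub_le_of_le (norm_add_le _ _) (norm_add_le _ _)).trans ?_
  rw [norm_smul, norm_smul, Real.norm_eq_abs]
  linarith

/-- locally uniform limits of complete fields are complete (`trotter` with
`T s = lim_U fl (W j) s`, `U ≤ l` an ultrafilter; `taut`) -/
theorem Gen.lim {n : ℕ} {X : Set E} (hX : CM n X) {J : Type} {l : Filter J} [l.NeBot] {W : J → E → E} {V : E → E}
    (hW : ∀ j, Gen X (W j)) (hl : TendstoLocallyUniformlyOn W V l X) (h0 : ∀ x, x ∉ X → V x = 0) : Gen X V := by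
  obtain ⟨R, hR⟩ := hX.bdd.exists_norm_le
  have aV : AnalyticOn ℂ V X := an_of_tendsto hX.mfd
    (fun x _ => ⟨univ, univ_mem, Eventually.of_forall fun j => (hW j).an.mono inter_subset_left⟩) hl
  set U := Ultrafilter.of l
  have hU : (U : Filter J) ≤ l := Ultrafilter.of_le _
  choose T ha hT using fun s : ℝ => montel hX.mfd U (f := fun j => fl X (W j) s) fun x _ =>
    ⟨univ, univ_mem, R, Eventually.of_forall fun j => ⟨((hW j).isFlow.an s).mono inter_subset_left,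
      fun y hy => hR _ ((hW j).isFlow.maps s hy.1)⟩⟩
  have key : ∀ x ∈ X, ∀ ε > 0, ∀ ρ > 0, ∃ δ > 0, ∀ᶠ j in l, ∀ y ∈ X ∩ ball x δ, ∀ s : ℝ, |s| ≤ δ →
      ‖fl X (W j) s y - y - s • V x‖ ≤ ε * |s| ∧ fl X (W j) s y ∈ ball x ρ := fun x hx ε hε ρ hρ => by
    obtain ⟨ρ1, a0, a1⟩ := near_est aV.continuousOn hx (half_pos hε)
    obtain ⟨t, ht, h1⟩ := Metric.tendstoLocallyUniformlyOn_iff.1 hl _ (half_pos hε) x hx
    obtain ⟨ρ2, b0, b1⟩ := Metric.mem_nhdsWithin_iff.1 ht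
    obtain ⟨δ, d0, d1⟩ := fl_est (X := X) (x := x) (v := V x) (lt_min hρ (lt_min a0 b0)) hε
    refine ⟨δ, d0, h1.mono fun j hj y hy s hs => ?_⟩
    have := d1 (W j) (hW j) (fun z hz => ?_) y hy s hs
    · exact ⟨this.1, ball_subset_ball (min_le_left _ _) this.2⟩
    · have h2 := mem_ball.1 hz.2
      simp only [lt_min_iff] at h2
      have h3 := hj z (b1 ⟨h2.2.2, hz.1⟩)
      rw [dist_comm, dist_eq_norm] at h3
      linarith [norm_sub_le_norm_sub_add_norm_sub (W j z) (V z) (V x), a1 z ⟨hz.1, h2.2.1⟩]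
  refine trotter hX aV h0 (T := T) ?_ fun x hx ε hε => ?_
  · obtain ⟨x, hx⟩ := hX.conn.nonempty
    obtain ⟨O', o1, o2, -, -, -, o3⟩ := hX.mfd.nbhd hx univ_mem
    obtain ⟨ρ, ρ0, hρ⟩ := Metric.isOpen_iff.1 o1 x o2
    obtain ⟨δ, d0, d1⟩ := key x hx 1 one_pos ρ ρ0
    filter_upwards [Metric.closedBall_mem_nhds (0 : ℝ) d0] with s hs
    rw [mem_closedBall_zero_iff, Real.norm_eq_abs] at hs
    refine ⟨ha s, taut hX hX.mfd hX.conn.isPreconnected (l := U) (f := fun j => fl X (W j) s)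
      (fun y _ => ⟨univ, univ_mem, Eventually.of_forall fun j => ⟨((hW j).isFlow.an s).mono inter_subset_left,
        ((hW j).isFlow.maps s).mono_left inter_subset_left⟩⟩) (fun y hy => (hT s).tendsto_at hy) hx
      (o3 (mem_closure_of_tendsto ((hT s).tendsto_at hx) ((d1.filter_mono hU).mono fun j hj =>
        ⟨(hW j).isFlow.maps s hx, hρ (hj x ⟨hx, mem_ball_self d0⟩ s hs).2⟩))).1⟩
  · obtain ⟨δ, d0, d1⟩ := key x hx _ (half_pos hε) 1 one_pos
    obtain ⟨ρ1, a0, a1⟩ := near_est aV.continuousOn hx (half_pos hε)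
    refine ⟨ball x (min δ ρ1), ball_mem_nhds _ (lt_min d0 a0), ?_⟩
    filter_upwards [Metric.closedBall_mem_nhds (0 : ℝ) d0] with s hs y hy
    rw [mem_closedBall_zero_iff, Real.norm_eq_abs] at hs
    have f1 : ‖T s y - y - s • V x‖ ≤ ε / 2 * |s| :=
      le_of_tendsto ((((hT s).tendsto_at hy.1).sub_const y).sub_const (s • V x)).norm
        ((d1.filter_mono hU).mono fun j hj => (hj y ⟨hy.1, ball_subset_ball (min_le_left _ _) hy.2⟩ s hs).1)
    have f4 := mul_le_mul_of_nonneg_left (a1 y ⟨hy.1, ball_subset_ball (min_le_right _ _) hy.2⟩).le (abs_nonneg s)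
    rw [show T s y - y - s • V y = (T s y - y - s • V x) - s • (V y - V x) by module]
    refine (norm_sub_le _ _).trans ?_
    rw [norm_smul, Real.norm_eq_abs]
    linarith

/-- `br V W = lim (W - push (fl V s) W) / s` (`Gen.push_fl`, `Gen.pushf`, `Gen.lim`, `locUnif_of_pointwise`) -/
theorem Gen.lie {n : ℕ} {X : Set E} (hX : CM n X) {V W : E → E} (hV : Gen X V) (hW : Gen X W) :
    Gen X (br X V W) := by
  have hf := hV.isFlow
  have hB := hV.vf.lie hX.mfd hW.vf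
  have hP := fun s => (hW.pushf hX.mfd (hf.toIsGrp.bih s)).1
  have p0 : push X X (fl X V 0) (fl X V (-0)) W = W := funext fun y => by
    by_cases hy : y ∈ X
    · exact hV.push_zero hW.vf hy
    · rw [hW.off y hy, (hP 0).off y hy]
  have hG : ∀ s : ℝ, Gen X ((-s⁻¹) • (push X X (fl X V s) (fl X V (-s)) W + (-1 : ℝ) • W)) := fun s =>
    (((hP s).add hX (hW.rsmul _).1).rsmul _).1
  have he : ∀ (s : ℝ) y, ((-s⁻¹) • (push X X (fl X V s) (fl X V (-s)) W + (-1 : ℝ) • W)) y =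
      -(s⁻¹ • (push X X (fl X V s) (fl X V (-s)) W y - W y)) := fun s y => by simp [sub_eq_add_neg, add_comm]
  refine Gen.lim hX (l := 𝓝[>] 0) hG (locUnif_of_pointwise hX.mfd (fun x hx => ?_) fun y hy => ?_) fun y hy =>
    br_off _ _ hy
  · obtain ⟨R, hR⟩ := hX.bdd.exists_norm_le
    obtain ⟨O, o1, -, L, L0, hL⟩ := unif_lip (F := E) hX.mfd hx univ_mem
    obtain ⟨ρ, ρ0, hρ⟩ := Metric.eventually_nhds_iff_ball.1 ((eventually_nhdsWithin_iff.1
      ((Metric.tendsto_nhds.1 (hB.an.continuousOn x hx) 1 one_pos).and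
        (Metric.tendsto_nhds.1 (hV.an.continuousOn x hx) 1 one_pos))).and o1)
    obtain ⟨δ, δ0, hδ⟩ := fl_est (X := X) (x := x) (v := V x) ρ0 one_pos
    have hδ := hδ V hV fun z hz => dist_eq_norm (V z) _ ▸ ((hρ z hz.2).1 hz.1).2
    refine ⟨ball x δ, ball_mem_nhds _ δ0, L * R * (‖br X V W x‖ + 1), ?_⟩
    filter_upwards [Ioc_mem_nhdsGT δ0] with s hs
    refine ⟨(hG s).an.mono inter_subset_left, fun y hy => ?_⟩
    have := norm_image_sub_le_of_norm_deriv_le_segment' (C := L * R * (‖br X V W x‖ + 1))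
      (fun σ _ => (hV.push_fl hX.mfd hW.vf hy.1 σ).hasDerivWithinAt) (fun σ (hσ : σ ∈ Ico 0 s) => by
        have m := hf.maps (-σ) hy.1
        have a := hρ _ (hδ y hy (-σ) (by rw [abs_neg, abs_of_nonneg hσ.1]; linarith [hσ.2, hs.2])).2
        rw [norm_neg, hV.br_push hX.mfd hW.vf, push, indicator_of_mem hy.1]
        refine ((hL (fl X V σ) R ((hf.an σ).mono inter_subset_left) fun z hz => hR _ (hf.maps σ hz.1)).2 _
          ⟨m, a.2⟩ _ (hB.tan _ m)).trans (mul_le_mul_of_nonneg_left ?_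
            (mul_nonneg L0 ((norm_nonneg _).trans (hR x hx))))
        have := (a.1 m).1
        rw [dist_eq_norm] at this
        linarith [norm_sub_norm_le (br X V W (fl X V (-σ) y)) (br X V W x)]) s (right_mem_Icc.2 hs.1.le)
    rw [p0, sub_zero] at this
    rw [he, norm_neg, norm_smul, norm_inv, Real.norm_of_nonneg hs.1.le, inv_mul_le_iff₀ hs.1, mul_comm s]
    exact this
  · simpa only [he, zero_add, p0, neg_neg] using (hV.push_fl hX.mfd hW.vf hy 0).tendsto_slope_zero_right.neg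

/-- local left inverse of an immersion: `P ∘ Dv X f x` is bijective on `Tan X x` for a linear `P : F → (Fin n → ℂ)`
(`LinearMap.exists_leftInverse_of_injective`, `Mfd.finrank_tan`); `loc_inv` for `P ∘ f` with `Y = univ`. -/
theorem loc_linv {n : ℕ} {X : Set E} (hX : Mfd n X) {f : E → F} (hf : AnalyticOn ℂ f X) {x : E} (hx : x ∈ X)
    (hi : ∀ v ∈ Tan X x, Dv X f x v = 0 → v = 0) :
    ∃ O, IsOpen O ∧ x ∈ O ∧ ∃ g : F → E, ∀ y ∈ X ∩ O, AnalyticAt ℂ g (f y) ∧ g (f y) = y := by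
  obtain ⟨Q, hQ⟩ := ((Dv X f x : E →ₗ[ℂ] F).domRestrict (Tan X x)).exists_leftInverse_of_injective
    (LinearMap.ker_eq_bot'.2 fun v hv => Subtype.ext (hi v v.2 hv))
  let e : Tan X x ≃ₗ[ℂ] (Fin n → ℂ) := LinearEquiv.ofFinrankEq _ _ (by simp [hX.finrank_tan hx])
  let P : F →L[ℂ] (Fin n → ℂ) := LinearMap.toContinuousLinearMap (e.toLinearMap ∘ₗ Q)
  have hY : Mfd n (univ : Set (Fin n → ℂ)) := by simpa using Mfd.of_isOpen (E := Fin n → ℂ) isOpen_univ
  obtain ⟨O, O', g, o1, o2, o3, -, hb⟩ := loc_inv hX hY (f := fun y => P (f y)) hx univ_mem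
    ((P.analyticOnNhd univ).comp_analyticOn (hf.mono inter_subset_left) (mapsTo_univ _ _)) (mapsTo_univ _ _)
    fun v hv h0 => by
      rw [Dv_clm P (hf.differentiableOn x hx) hv] at h0
      exact congrArg Subtype.val ((LinearMap.congr_fun hQ ⟨v, hv⟩).symm.trans (e.map_eq_zero_iff.1 h0))
  refine ⟨O, o1, o3, fun z => g (P z), fun y hy => ⟨AnalyticAt.comp ?_ (P.analyticAt _), hb.gf y hy⟩⟩
  have := hb.mf hy
  exact hb.ag.analyticAt (inter_mem univ_mem (o2.mem_nhds this.2))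

/-- Continuous one-parameter groups have a holomorphic generator.  Continuity extends from `Ω` to `X` because the
`φ t` are `cd`-isometries.  `A = (1/ε) ∫₀^ε φ s ds` is holomorphic, close to the identity, so `DA` is injective on
`Tan` near a given point; `A (φ t x) - A x = (1/ε)(∫_ε^{ε+t} - ∫₀^t) φ s x` is differentiable in `t`; compose with a chart
and a local inverse. -/
theorem IsGrp.gen {n : ℕ} {X : Set E} (hX : CM n X) {φ : ℝ → E → E} (h : IsGrp X φ) {Ω : Set E} (hs : Ω ⊆ X)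
    (hd : X ⊆ closure Ω) (hc : ∀ x ∈ Ω, ContinuousAt (fun t => φ t x) 0) : ∃ W, Gen X W ∧ IsFlow X W φ := by
  obtain ⟨R, hR⟩ := hX.bdd.exists_norm_le
  have c0 : ∀ x ∈ X, Tendsto (fun t => φ t x) (𝓝 0) (𝓝 x) := fun x hx => Metric.tendsto_nhds.2 fun ε hε => by
    obtain ⟨O, o1, -, L, L0, hL⟩ := unif_lip (F := E) hX.mfd hx univ_mem
    have R0 := mul_nonneg L0 ((norm_nonneg _).trans (hR x hx))
    obtain ⟨y, ⟨y1, y2⟩, y3⟩ := mem_closure_iff_nhds.1 (hd hx) _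
      (inter_mem o1 (ball_mem_nhds x (show 0 < ε / 2 / (L * R + 1) by positivity)))
    filter_upwards [Metric.tendsto_nhds.1 (hc y y3) _ (half_pos hε)] with t ht
    have a := (hL (φ t) R ((h.an t).mono inter_subset_left) fun z hz => hR _ (h.maps t hz.1)).1 _
      ⟨hs y3, y1⟩ _ ⟨hx, mem_of_mem_nhds o1⟩
    rw [mem_ball, lt_div_iff₀ (by positivity)] at y2
    rw [h.zero y (hs y3)] at ht
    rw [← dist_eq_norm, ← dist_eq_norm, dist_comm] at a
    linarith [dist_triangle4 (φ t x) (φ t y) y x]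
  have c1 : ∀ x ∈ X, Continuous fun t => φ t x := fun x hx => continuous_iff_continuousAt.2 fun t => by
    have := (c0 _ (h.maps t hx)).comp (Continuous.tendsto' (f := fun s => s - t) (by fun_prop) t 0 (sub_self t))
    simpa only [ContinuousAt, Function.comp_def, ← h.add _ _ x hx, sub_add_cancel] using this
  have c2 := h.continuousOn hX c1
  have key : ∀ x ∈ X, ∃ O ∈ 𝓝 x, ∃ w : E → E, AnalyticOn ℂ w (X ∩ O) ∧
      ∀ y ∈ X ∩ O, HasDerivAt (fun t => φ t y) (w y) 0 := fun x hx => by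
    obtain ⟨O', o1, o2, -, -, o3, o4⟩ := hX.mfd.nbhd hx univ_mem
    obtain ⟨O1, p1, -, L, L0, hL⟩ := unif_lip (F := E) hX.mfd hx (o1.mem_nhds o2)
    obtain ⟨ε, ε0, hε⟩ := Metric.eventually_nhds_iff_ball.1 (o3.eventually_forall_of_forall_eventually (x₀ := (0 : ℝ))
      (P := fun s y => y ∈ X → ‖φ s y - y‖ ≤ 1 / 2 / (L + 1)) fun y hy => by
        have a := ((c2 (0, y) ⟨trivial, (o4 hy).1⟩).sub continuousWithinAt_snd).norm
        simp only [ContinuousWithinAt, Pi.sub_apply, h.zero y (o4 hy).1, sub_self, norm_zero] at a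
        exact (eventually_nhdsWithin_iff.1 (a.eventually (ge_mem_nhds (by positivity)))).mono
          fun p hp hp' => hp ⟨trivial, hp'⟩)
    obtain ⟨a1, a2⟩ := an_integral hX.mfd (a := 0) (b := ε / 2) (fun t _ => h.an t)
      (c2.mono (prod_mono (subset_univ _) Subset.rfl))
    obtain ⟨O, q1, q2, g, hg⟩ := loc_linv hX.mfd a1 hx fun v hv h0 => by
      obtain ⟨b1, b2⟩ := a2 x hx v hv
      have b3 := intervalIntegral.norm_integral_le_of_norm_le_const (a := 0) (b := ε / 2) (C := 1 / 2 * ‖v‖)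
        (f := fun t => Dv X (φ t) x v - v) fun t ht => by
          rw [uIoc_of_le (by positivity)] at ht
          have := (hL (fun y => φ t y - y) _ (((h.an t).sub analyticOn_id).mono inter_subset_left) fun y hy =>
            hε t (by rw [mem_ball_zero_iff, Real.norm_of_nonneg ht.1.le]; linarith [ht.2]) y (subset_closure hy) hy.1).2
            x ⟨hx, mem_of_mem_nhds p1⟩ v hv
          rw [Dv_sub ((h.an t).differentiableOn x hx) differentiableWithinAt_fun_id hv, Dv_id hv] at this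
          refine this.trans (mul_le_mul_of_nonneg_right ?_ (norm_nonneg _))
          rw [← mul_div_assoc, div_le_iff₀ (by positivity)]
          linarith
      rw [intervalIntegral.integral_sub b1.intervalIntegrable intervalIntegrable_const, ← b2, h0, zero_sub, norm_neg,
        intervalIntegral.integral_const, norm_smul, sub_zero, Real.norm_eq_abs, abs_of_pos (half_pos ε0)] at b3
      exact norm_le_zero_iff.1 (by nlinarith)
    refine ⟨O, q1.mem_nhds q2, fun y => fderiv ℂ g (∫ t in 0..ε / 2, φ t y) (φ (ε / 2) y - y), fun y hy =>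
      ((ContinuousLinearMap.id ℂ (E →L[ℂ] E)).analyticAt_bilinear _).comp_analyticWithinAt
        ((((hg y hy).1.fderiv.comp_analyticWithinAt_of_eq (a1 y hy.1) rfl).prod
          ((h.an _ y hy.1).sub analyticWithinAt_id)).mono inter_subset_left), fun y hy => ?_⟩
    have d := fun u => ((c1 y hy.1).integral_hasStrictDerivAt 0 u).hasDerivAt
    have d1 : HasDerivAt (fun t => ∫ s in 0..ε / 2, φ s (φ t y)) (φ (ε / 2) y - y) 0 := by
      have := ((d _).comp_const_add (ε / 2) 0).fun_sub (d 0)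
      rw [h.zero y hy.1, add_zero] at this
      convert this using 2 with t
      simp only [← h.add _ _ y hy.1]
      rw [intervalIntegral.integral_comp_add_right (fun s => φ s y), zero_add,
        intervalIntegral.integral_interval_sub_left ((c1 y hy.1).intervalIntegrable _ _)
          ((c1 y hy.1).intervalIntegrable _ _)]
    refine (HasFDerivAt.comp_hasDerivAt (0 : ℝ) (by
      rw [h.zero y hy.1]
      exact (hg y hy).1.differentiableAt.hasFDerivAt.restrictScalars ℝ) d1).congr_of_eventuallyEq ?_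
    filter_upwards [c0 y hy.1 (q1.mem_nhds hy.2)] with t ht
    exact (hg _ ⟨h.maps t hy.1, ht⟩).2.symm
  have hF : IsFlow X (X.indicator fun y => deriv (fun t => φ t y) 0) φ := ⟨h, fun x hx => by
    obtain ⟨O, o, w, -, hw⟩ := key x hx
    rw [indicator_of_mem hx]
    exact (hw x ⟨hx, mem_of_mem_nhds o⟩).differentiableAt.hasDerivAt⟩
  refine ⟨_, ⟨anOn_of_local fun x hx => ?_, fun x hx => indicator_of_notMem hx _, φ, hF⟩, hF⟩
  obtain ⟨O, o, w, w1, w2⟩ := key x hx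
  exact ⟨O, o, w1.congr fun y hy => (hF.der y hy.1).unique (w2 y hy)⟩

/-- the space of complete fields -/
def genSub {n : ℕ} {X : Set E} (hX : CM n X) : Submodule ℝ (E → E) where
  carrier := {W | Gen X W}
  add_mem' := fun h h' => Gen.add hX h h'
  zero_mem' := gen_zero X
  smul_mem' := fun c _ h => (Gen.rsmul h c).1

theorem Gen.sum {n : ℕ} {X : Set E} (hX : CM n X) {J : Type} [Fintype J] {W : J → E → E} (hW : ∀ j, Gen X (W j))
    (c : J → ℝ) : Gen X (∑ j, c j • W j) :=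
  (genSub hX).sum_mem fun j _ => (genSub hX).smul_mem (c j) (hW j)

end Crest.Agent.R264
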